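import Vale.Agent.P154.Pointwise
import Vale.Agent.P154.Neg.CertF

/-!
The pointwise inequality for the three-state Potts channel with a small negative eigenvalue,
from the sum of squares certificate `CertF`.
-/

namespace Vale.Agent.P154.Neg

open Vale.Agent.P154 Vale.Agent.P154.Q4

noncomputable section

/-- The point of the certificate. -/
def xPt (a p B q : ℝ) : Pt := ⟨2 * a - 1, p - 1, 2 * B - 1, q, 0, 0⟩

/-- The polynomial to be shown nonnegative: arguments `a`, `p`, `b`, `q`. -/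
def Tval (a p b q : ℝ) : ℝ :=
  (p + q - 1) * (1 - 3 * (1 - a) * (1 - b) + 2 * (1 - a) * (1 - b) * ((1 - a * p) * (1 - b * q)))
    + 2 * a * b * (2 - p - q - (1 - a * p) * (1 - b * q))
    + (-(2 / 25) * (2 - p - q) - 4779 / 12500)
      * (1 - 3 * (1 - a) * (1 - b) + 2 * (1 - a) * (1 - b) * ((1 - a * p) * (1 - b * q)))

/-- The constant one. -/
def oneP : Poly := [(⟨0, 0, 0, 0, 0, 0⟩, 1)]
/-- Variable zero. -/
def x0P : Poly := [(⟨1, 0, 0, 0, 0, 0⟩, 1)]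
/-- Variable one. -/
def x1P : Poly := [(⟨0, 1, 0, 0, 0, 0⟩, 1)]
/-- Variable two. -/
def x2P : Poly := [(⟨0, 0, 1, 0, 0, 0⟩, 1)]
/-- Variable three. -/
def x3P : Poly := [(⟨0, 0, 0, 1, 0, 0⟩, 1)]

/-- `2 a`. -/
def a2P : Poly := Poly.add oneP x0P
/-- `2 (1 - a)`. -/
def A2P : Poly := Poly.add oneP (Poly.smul (-1) x0P)
/-- `p`. -/
def p1P : Poly := Poly.add oneP x1P
/-- `800 b`. -/
def b8P : Poly := Poly.add (Poly.smul 791 oneP) (Poly.smul (-9) x2P)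
/-- `800 (1 - b)`. -/
def B8P : Poly := Poly.add (Poly.smul 9 oneP) (Poly.smul 9 x2P)
/-- `20 q`. -/
def q2P : Poly := Poly.add (Poly.smul 20 oneP) (Poly.smul 3 x3P)
/-- `2 (1 - a p)`. -/
def xsP : Poly := Poly.add (Poly.smul 2 oneP) (Poly.smul (-1) (Poly.mul a2P p1P))
/-- `16000 (1 - b q)`. -/
def wsP : Poly := Poly.add (Poly.smul 16000 oneP) (Poly.smul (-1) (Poly.mul b8P q2P))
/-- `1600 (1 - a) (1 - b)`. -/
def abP : Poly := Poly.mul A2P B8P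
/-- `32000 (1 - a p) (1 - b q)`. -/
def xwP : Poly := Poly.mul xsP wsP
/-- The scaled common factor. -/
def EsP : Poly := Poly.sum [Poly.smul 51200000 oneP, Poly.smul (-96000) abP,
  Poly.smul 2 (Poly.mul abP xwP)]
/-- `20 (p + q)`. -/
def pqP : Poly := Poly.add (Poly.smul 20 p1P) q2P
/-- The scaled second factor. -/
def YsP : Poly := Poly.add (Poly.smul 32000 (Poly.add (Poly.smul 40 oneP) (Poly.smul (-1) pqP)))
  (Poly.smul (-20) xwP)
/-- The scaled coefficient. -/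
def CsP : Poly := Poly.add (Poly.smul (-1000) (Poly.add (Poly.smul 40 oneP) (Poly.smul (-1) pqP)))
  (Poly.smul (-95580) oneP)
/-- The scaled polynomial. -/
def TsP : Poly := Poly.sum [
  Poly.smul 12500 (Poly.mul (Poly.add pqP (Poly.smul (-20) oneP)) EsP),
  Poly.smul 25000 (Poly.mul (Poly.mul a2P b8P) YsP),
  Poly.mul CsP EsP]

theorem eval_TsP (a p B q : ℝ) :
    Poly.eval TsP (xPt a p B q)
      = 12800000000000 * Tval a p (1 - 9 / 400 * B) (1 + 3 / 20 * q) := by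
  have e0 : Poly.eval oneP (xPt a p B q) = 1 := by simp [oneP, Mono.eval]
  have e1 : Poly.eval x0P (xPt a p B q) = 2 * a - 1 := by simp [x0P, Mono.eval, xPt]
  have e2 : Poly.eval x1P (xPt a p B q) = p - 1 := by simp [x1P, Mono.eval, xPt]
  have e3 : Poly.eval x2P (xPt a p B q) = 2 * B - 1 := by simp [x2P, Mono.eval, xPt]
  have e4 : Poly.eval x3P (xPt a p B q) = q := by simp [x3P, Mono.eval, xPt]
  unfold TsP EsP YsP CsP pqP xwP abP wsP xsP q2P B8P b8P p1P A2P a2P Tval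
  simp only [Poly.eval_sum, Poly.evalList, List.map_cons, List.map_nil, List.sum_cons, List.sum_nil,
    Poly.eval_smul, Poly.eval_mul, Poly.eval_add, e0, e1, e2, e3, e4]
  push_cast
  ring

/-- The relation of the target of the certificate with the scaled polynomial. -/
theorem rel_F : Poly.isZero (Poly.add (Poly.smul 12800000000000 CertF.target)
    (Poly.smul (-CertF.K) TsP)) = true := by
  decide +kernel

theorem mults_F {a p B q : ℝ} (ha0 : 0 < a) (ha1 : a ≤ 1)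
    (hC : a * p ^ 2 ≤ 2 * p - 1) (hU : 2 * (1 - a) * p ≤ 1) (hB0 : 0 ≤ B) (hB1 : B ≤ 1)
    (hH : q ^ 2 ≤ B * (1 + 3 / 20 * q) ^ 2)
    (hH2 : 0 ≤ 1 - 3 * B - 2 * B * ((1 - (1 - 9 / 400 * B) * (1 + 3 / 20 * q)) * (20 / 3))) :
    ∀ P ∈ CertF.mults, 0 ≤ Poly.eval P (xPt a p B q) := by
  have hp1 : 1 / 2 ≤ p := by
    have : 0 ≤ a * p ^ 2 := by positivity
    linarith
  have hp2 : p ≤ 2 := by
    by_contra h
    push Not at h
    have h1 : 0 < 1 - a := by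
      by_contra h'
      push Not at h'
      have : a = 1 := le_antisymm ha1 (by linarith)
      subst this
      nlinarith [sq_nonneg (p - 1)]
    have h2 : 3 / 4 < a := by nlinarith
    nlinarith
  have hq2 : q ^ 2 ≤ 36 / 25 := by
    have h1 : q ^ 2 ≤ (1 + 3 / 20 * q) ^ 2 := by
      have : B * (1 + 3 / 20 * q) ^ 2 ≤ 1 * (1 + 3 / 20 * q) ^ 2 :=
        mul_le_mul_of_nonneg_right hB1 (sq_nonneg _)
      linarith
    nlinarith [sq_nonneg (q - 6 / 5), sq_nonneg (q + 6 / 5)]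
  have h1 : 0 ≤ a * (1 - a) := mul_nonneg ha0.le (by linarith)
  have h2 : 0 ≤ (p - 1 / 2) * (2 - p) := mul_nonneg (by linarith) (by linarith)
  have h3 : 0 ≤ B * (1 - B) := mul_nonneg hB0 (by linarith)
  simp only [CertF.mults, List.mem_cons, List.not_mem_nil, or_false, forall_eq_or_imp, forall_eq]
  simp only [Poly.eval_cons, Poly.eval_nil, Mono.eval, xPt, pow_zero, pow_one, mul_one, one_mul,
    add_zero, Int.cast_one, Int.cast_ofNat, Int.cast_neg]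
  refine ⟨by norm_num, ?_, ?_, ?_, ?_, ?_, ?_, ?_, ?_, ?_⟩
  · linarith
  · nlinarith
  · linarith
  · nlinarith
  · nlinarith
  · nlinarith
  · nlinarith
  · nlinarith
  · nlinarith

theorem Tval_nonneg {a p B q : ℝ} (ha0 : 0 < a) (ha1 : a ≤ 1)
    (hC : a * p ^ 2 ≤ 2 * p - 1) (hU : 2 * (1 - a) * p ≤ 1) (hB0 : 0 ≤ B) (hB1 : B ≤ 1)
    (hH : q ^ 2 ≤ B * (1 + 3 / 20 * q) ^ 2)
    (hH2 : 0 ≤ 1 - 3 * B - 2 * B * ((1 - (1 - 9 / 400 * B) * (1 + 3 / 20 * q)) * (20 / 3))) :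
    0 ≤ Tval a p (1 - 9 / 400 * B) (1 + 3 / 20 * q) := by
  have h := lcert_nonneg' CertF.mults CertF.blocks CertF.target CertF.psdAll CertF.polyId
    (xPt a p B q) (mults_F ha0 ha1 hC hU hB0 hB1 hH hH2)
  have h0 := Poly.eval_of_isZero rel_F (xPt a p B q)
  rw [Poly.eval_add, Poly.eval_smul, Poly.eval_smul, eval_TsP] at h0
  have hK : (0 : ℝ) < ((CertF.K : Int) : ℝ) := by
    have : (0 : Int) < CertF.K := by decide +kernel
    exact_mod_cast this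
  push_cast at h0
  have h4 : (CertF.K : ℝ) * (12800000000000 * Tval a p (1 - 9 / 400 * B) (1 + 3 / 20 * q))
      = 12800000000000 * Poly.eval CertF.target (xPt a p B q) := by linarith
  have h5 : 0 ≤ (CertF.K : ℝ) * (12800000000000 * Tval a p (1 - 9 / 400 * B) (1 + 3 / 20 * q)) := by
    rw [h4]; positivity
  have h6 := nonneg_of_mul_nonneg_right h5 hK
  linarith

/-- Abstract assembling step for the inequality with a free value. -/
theorem F1_abstractX {Z0 Z1 Z2 Z3 Z4 Z5 W0 W1 W2 W3 W4 W5 N D X : ℝ}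
    (pZ0 : 0 < Z0) (pZ1 : 0 < Z1) (pZ2 : 0 < Z2) (pZ3 : 0 < Z3) (pZ4 : 0 < Z4) (pZ5 : 0 < Z5)
    (hc1 : W0 * Z1 * Z2 + W1 * Z2 * Z0 + W2 * Z0 * Z1 = 3 * N)
    (hc2 : W3 * Z4 * Z5 + W4 * Z5 * Z3 + W5 * Z3 * Z4 = 3 * N)
    (hDD : Z0 * Z1 * Z2 + Z3 * Z4 * Z5 = 2 * D) (hZsum : Z0 + Z1 + Z2 + Z3 + Z4 + Z5 = 6)
    (hN0 : 0 ≤ N) (hmain : X * D ≤ N) :
    ((Z0 + Z1 + Z2 + Z3 + Z4 + Z5)
        - (W0 / Z0 + W1 / Z1 + W2 / Z2 + W3 / Z3 + W4 / Z4 + W5 / Z5)) / 6 ≤ 1 - X := by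
  have hD0 : 0 < D := by
    have : 0 < Z0 * Z1 * Z2 + Z3 * Z4 * Z5 := by positivity
    linarith
  have hsum := sum6_bound pZ0 pZ1 pZ2 pZ3 pZ4 pZ5 hc1 hc2 hDD hN0
  have hfr : X ≤ N / D := by
    rw [le_div_iff₀ hD0]; exact hmain
  have h6 : 6 * N / D = 6 * (N / D) := by ring
  rw [h6] at hsum
  rw [hZsum]
  linarith

/-- The region of a normalised triple whose entries are at most `1 + 3 / 20`. -/
theorem region_F {w1 w2 w3 b q : ℝ} (hw : w1 + w2 + w3 = 3) (h1 : w1 ≤ 1 + 3 / 20)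
    (h2 : w2 ≤ 1 + 3 / 20) (h3 : w3 ≤ 1 + 3 / 20) (hb : b = (w1 * w2 + w2 * w3 + w3 * w1) / 3)
    (hq : w1 * w2 * w3 = b * (1 - 2 * (1 - b) * q)) :
    1 - b ≤ 9 / 400 ∧ 0 ≤ (3 / 20) ^ 3 - 3 * (3 / 20) * (1 - b) - 2 * (1 - b) * (1 - b * q) := by
  have hu1 : 0 ≤ 1 + 3 / 20 - w1 := by linarith
  have hu2 : 0 ≤ 1 + 3 / 20 - w2 := by linarith
  have hu3 : 0 ≤ 1 + 3 / 20 - w3 := by linarith
  have hw3 : w3 = 3 - w1 - w2 := by linarith
  constructor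
  · have e : (1 + 3 / 20 - w1) * (1 + 3 / 20 - w2) + (1 + 3 / 20 - w2) * (1 + 3 / 20 - w3)
        + (1 + 3 / 20 - w3) * (1 + 3 / 20 - w1) = 3 * (9 / 400 - (1 - b)) := by
      rw [hb, hw3]; ring
    have h4 := mul_nonneg hu1 hu2
    have h5 := mul_nonneg hu2 hu3
    have h6 := mul_nonneg hu3 hu1
    linarith
  · have e : (1 + 3 / 20 - w1) * (1 + 3 / 20 - w2) * (1 + 3 / 20 - w3)
        = (3 / 20) ^ 3 - 3 * (3 / 20) * (1 - b) - (w1 * w2 * w3 - 1 + 3 * (1 - b)) := by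
      rw [hb, hw3]; ring
    have h4 := mul_nonneg (mul_nonneg hu1 hu2) hu3
    rw [e, hq] at h4
    have e2 : b * (1 - 2 * (1 - b) * q) - 1 + 3 * (1 - b) = 2 * (1 - b) * (1 - b * q) := by ring
    rw [e2] at h4
    exact h4

/-- The main inequality in the parameters. -/
theorem main_paramX {a b p q P1 P2 : ℝ} (ha1 : a ≤ 1) (hb1 : b ≤ 1)
    (hp : P1 = a * (1 - 2 * (1 - a) * p)) (hq : P2 = b * (1 - 2 * (1 - b) * q))
    (hT : 0 ≤ Tval a p b q) :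
    (a * b - (1 - a) * (1 - b) + 2 * (27 / 50) * ((1 - a) * (1 - b)) * (2 - p - q + 177 / 500))
        * (1 - 3 * (1 - a) * (1 - b) + 2 * ((P1 - 1 + 3 * (1 - a)) / 2) * ((P2 - 1 + 3 * (1 - b)) / 2))
      ≤ a ^ 2 * b ^ 2 + b * (1 - b) * P1 + a * (1 - a) * P2 := by
  subst hp hq
  have key : a ^ 2 * b ^ 2 + b * (1 - b) * (a * (1 - 2 * (1 - a) * p))
        + a * (1 - a) * (b * (1 - 2 * (1 - b) * q))
      - (a * b - (1 - a) * (1 - b)
          + 2 * (27 / 50) * ((1 - a) * (1 - b)) * (2 - p - q + 177 / 500))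
        * (1 - 3 * (1 - a) * (1 - b)
          + 2 * ((a * (1 - 2 * (1 - a) * p) - 1 + 3 * (1 - a)) / 2)
            * ((b * (1 - 2 * (1 - b) * q) - 1 + 3 * (1 - b)) / 2))
      = (1 - a) * (1 - b) * Tval a p b q := by
    unfold Tval
    ring
  have h1 : 0 ≤ 1 - b := by linarith
  have h2 : 0 ≤ 1 - a := by linarith
  have : 0 ≤ (1 - a) * (1 - b) * Tval a p b q := by positivity
  linarith

/-- The second constraint in the scaled coordinates. -/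
theorem coord_H {b q B y : ℝ} (eb : b = 1 - 9 / 400 * B) (eq' : q = 1 + 3 / 20 * y)
    (hqC : b * q ^ 2 ≤ 2 * q - 1) : y ^ 2 ≤ B * (1 + 3 / 20 * y) ^ 2 := by
  subst eb eq'
  nlinarith

/-- The cubic constraint in the scaled coordinates. -/
theorem coord_H2 {b q B y : ℝ} (eb : b = 1 - 9 / 400 * B) (eq' : q = 1 + 3 / 20 * y)
    (hR2 : 0 ≤ (3 / 20) ^ 3 - 3 * (3 / 20) * (1 - b) - 2 * (1 - b) * (1 - b * q)) :
    0 ≤ 1 - 3 * B - 2 * B * ((1 - (1 - 9 / 400 * B) * (1 + 3 / 20 * y)) * (20 / 3)) := by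
  subst eb eq'
  nlinarith

/-- The normalised form of the pointwise inequality. -/
theorem F1k_norm {v1 v2 v3 w1 w2 w3 : ℝ} (hv1 : 0 < v1) (hv2 : 0 < v2) (hv3 : 0 < v3)
    (hw1 : 0 < w1) (hw2 : 0 < w2) (hw3 : 0 < w3) (hv : v1 + v2 + v3 = 3) (hw : w1 + w2 + w3 = 3)
    (h1 : w1 ≤ 1 + 3 / 20) (h2 : w2 ≤ 1 + 3 / 20) (h3 : w3 ≤ 1 + 3 / 20) :
    sym6 yy v1 v2 v3 w1 w2 w3 / 6 ≤ yy v1 v2 v3 + yy w1 w2 w3
      - 27 / 50 * (yy w1 w2 w3 * (hh v1 v2 v3 + 177 / 500 * yy v1 v2 v3)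
        + yy v1 v2 v3 * (hh w1 w2 w3 + 177 / 500 * yy w1 w2 w3)) := by
  obtain ⟨a, ha⟩ : ∃ a, a = (v1 * v2 + v2 * v3 + v3 * v1) / 3 := ⟨_, rfl⟩
  obtain ⟨b, hb⟩ : ∃ b, b = (w1 * w2 + w2 * w3 + w3 * w1) / 3 := ⟨_, rfl⟩
  obtain ⟨ha0, ha1, p, hp, hpC, hpU⟩ := exists_param hv1 hv2 hv3 hv ha
  obtain ⟨hb0, hb1, q, hq, hqC, hqU⟩ := exists_param hw1 hw2 hw3 hw hb
  have yv : yy v1 v2 v3 = 1 - a := by rw [yy_norm hv, ha]
  have yw : yy w1 w2 w3 = 1 - b := by rw [yy_norm hw, hb]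
  have mv : mm v1 v2 v3 = 1 - 2 * (1 - a) * p := by
    unfold mm
    have : v1 * v2 + v2 * v3 + v3 * v1 = 3 * a := by rw [ha]; ring
    rw [this, hp]
    field_simp
  have mw : mm w1 w2 w3 = 1 - 2 * (1 - b) * q := by
    unfold mm
    have : w1 * w2 + w2 * w3 + w3 * w1 = 3 * b := by rw [hb]; ring
    rw [this, hq]
    field_simp
  have hv_ : hh v1 v2 v3 = 2 * (1 - a) * (1 - p) := by
    unfold hh; rw [mv, yv, hv]; ring
  have hw_ : hh w1 w2 w3 = 2 * (1 - b) * (1 - q) := by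
    unfold hh; rw [mw, yw, hw]; ring
  obtain ⟨hR1, hR2⟩ := region_F hw h1 h2 h3 hb hq
  -- the scaled coordinates of the second triple
  obtain ⟨B, hB⟩ : ∃ B, B = (1 - b) * (400 / 9) := ⟨_, rfl⟩
  obtain ⟨y, hy⟩ : ∃ y, y = (q - 1) * (20 / 3) := ⟨_, rfl⟩
  have eb : b = 1 - 9 / 400 * B := by rw [hB]; ring
  have eq' : q = 1 + 3 / 20 * y := by rw [hy]; ring
  have hB0 : 0 ≤ B := by rw [hB]; linarith only [hb1]
  have hB1 : B ≤ 1 := by rw [hB]; linarith only [hR1]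
  have hH : y ^ 2 ≤ B * (1 + 3 / 20 * y) ^ 2 := coord_H eb eq' hqC
  have hH2 := coord_H2 eb eq' hR2
  have hT := Tval_nonneg ha0 ha1 hpC hpU hB0 hB1 hH hH2
  rw [← eb, ← eq'] at hT
  rw [yv, yw, hv_, hw_, sym6_yy_eq hv1 hv2 hv3 hw1 hw2 hw3]
  have hv3' : v3 = 3 - v1 - v2 := by linarith only [hv]
  have hw3' : w3 = 3 - w1 - w2 := by linarith only [hw]
  have hc1 := id_cyc1 hv3' hw3'
  have hDD := id_den hv3' hw3'
  have hZsum := id_Zsum hv hw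
  have hc2 := id_cyc1 (v1 := v1) (v2 := v2) (v3 := v3) (w1 := w1) (w2 := w3) (w3 := w2) hv3'
    (by linarith only [hw])
  have eb2 : (w1 * w3 + w3 * w2 + w2 * w1) / 3 = b := by rw [hb]; ring
  have ep2 : w1 * w3 * w2 = w1 * w2 * w3 := by ring
  rw [← ha, ← hb] at hc1 hDD
  rw [← ha, eb2, ep2] at hc2
  have e : 1 - a + (1 - b) - 27 / 50 * ((1 - b) * (2 * (1 - a) * (1 - p) + 177 / 500 * (1 - a))
        + (1 - a) * (2 * (1 - b) * (1 - q) + 177 / 500 * (1 - b)))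
      = 1 - (a * b - (1 - a) * (1 - b)
        + 2 * (27 / 50) * ((1 - a) * (1 - b)) * (2 - p - q + 177 / 500)) := by
    ring
  rw [e]
  refine F1_abstractX (N := a ^ 2 * b ^ 2 + b * (1 - b) * (v1 * v2 * v3)
      + a * (1 - a) * (w1 * w2 * w3)) (D := 1 - 3 * (1 - a) * (1 - b)
      + 2 * ((v1 * v2 * v3 - 1 + 3 * (1 - a)) / 2) * ((w1 * w2 * w3 - 1 + 3 * (1 - b)) / 2))
      (by positivity) (by positivity) (by positivity) (by positivity) (by positivity)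
      (by positivity) hc1 ?_ hDD hZsum ?_ ?_
  · rw [← hc2]
  · have h1 : 0 ≤ 1 - b := by linarith only [hb1]
    have h2 : 0 ≤ 1 - a := by linarith only [ha1]
    positivity
  · exact main_paramX ha1 hb1 hp hq hT

/-- The pointwise inequality. -/
theorem F1k_gen {a1 a2 a3 b1 b2 b3 : ℝ} (h1 : 0 < a1) (h2 : 0 < a2) (h3 : 0 < a3)
    (h4 : 0 < b1) (h5 : 0 < b2) (h6 : 0 < b3)
    (hb1 : b1 ≤ (1 + 3 / 20) * ((b1 + b2 + b3) / 3)) (hb2 : b2 ≤ (1 + 3 / 20) * ((b1 + b2 + b3) / 3))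
    (hb3 : b3 ≤ (1 + 3 / 20) * ((b1 + b2 + b3) / 3)) :
    sym6 yy a1 a2 a3 b1 b2 b3 / 6
      ≤ (b1 + b2 + b3) / 3 * yy a1 a2 a3 + (a1 + a2 + a3) / 3 * yy b1 b2 b3
        - 27 / 50 * (yy b1 b2 b3 * (hh a1 a2 a3 + 177 / 500 * yy a1 a2 a3)
          + yy a1 a2 a3 * (hh b1 b2 b3 + 177 / 500 * yy b1 b2 b3)) := by
  obtain ⟨s, v1, v2, v3, hs, hv1, hv2, hv3, hv, rfl, rfl, rfl, hss⟩ := exists_normal h1 h2 h3
  obtain ⟨t, w1, w2, w3, ht, hw1, hw2, hw3, hw, rfl, rfl, rfl, htt⟩ := exists_normal h4 h5 h6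
  rw [htt] at hb1 hb2 hb3
  have hw1' : w1 ≤ 1 + 3 / 20 := by
    have : t * w1 ≤ t * (1 + 3 / 20) := by linarith
    exact le_of_mul_le_mul_left this ht
  have hw2' : w2 ≤ 1 + 3 / 20 := by
    have : t * w2 ≤ t * (1 + 3 / 20) := by linarith
    exact le_of_mul_le_mul_left this ht
  have hw3' : w3 ≤ 1 + 3 / 20 := by
    have : t * w3 ≤ t * (1 + 3 / 20) := by linarith
    exact le_of_mul_le_mul_left this ht
  rw [hss, htt, sym6_smul yy_smul hs ht hv1 hv2 hv3 hw1 hw2 hw3, yy_smul hs hv1 hv2 hv3,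
    yy_smul ht hw1 hw2 hw3, hh_smul hs hv1 hv2 hv3, hh_smul ht hw1 hw2 hw3]
  have := F1k_norm hv1 hv2 hv3 hw1 hw2 hw3 hv hw hw1' hw2' hw3'
  have hst : 0 < s * t := by positivity
  have := mul_le_mul_of_nonneg_left this hst.le
  nlinarith

end

end Vale.Agent.P154.Neg
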