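import Vale.Agent.P154.Neg.Tree

/-!
Three-state Potts channel with negative eigenvalue: Galton-Watson trees.
-/

namespace Vale.Agent.P154

noncomputable section

open Finset Filter Topology

variable {l0 kappa gam lam : ℝ}

theorem HK_pi_zero {Ω : Fin 0 → Type} [∀ c, Fintype (Ω c)] (L : ∀ c, Ω c → Fin 3 → ℝ) :
    HK kappa (piLaw L) = 0 := by
  unfold HK
  rw [HH_pi_zero, YY_pi_zero]
  ring

theorem HK_pi_nonneg {k : ℕ} {Ω : Fin k → Type} [∀ c, Fintype (Ω c)] {L : ∀ c, Ω c → Fin 3 → ℝ}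
    (hk0 : 0 ≤ kappa) (h : ∀ c, IsLaw (L c)) (hη : ∀ c, 0 ≤ HK kappa (L c)) :
    0 ≤ HK kappa (piLaw L) := by
  induction k with
  | zero => rw [HK_pi_zero]
  | succ k ih =>
    rw [piLaw_succ, HK_comp_equiv]
    exact HK_prod_nonneg hk0 (h 0) (IsLaw.pi fun c => h _) (hη 0)
      (ih (fun c => h _) (fun c => hη _))

/-- One factor splits off. -/
theorem YY_pi_split {k : ℕ} {Ω : Fin (k + 1) → Type} [∀ c, Fintype (Ω c)]
    {L : ∀ c, Ω c → Fin 3 → ℝ} (hF : F1k l0 kappa gam) (h : ∀ c, GoodNeg l0 kappa (L c)) :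
    YY (piLaw L) ≤ YY (piLaw fun c => L (Fin.succ c)) + YY (L 0)
      - gam * (YY (L 0) * HK kappa (piLaw fun c => L (Fin.succ c))
        + YY (piLaw fun c => L (Fin.succ c)) * HK kappa (L 0)) := by
  rw [piLaw_succ, YY_comp_equiv, YY_prod_comm]
  exact YY_prod_le_k hF (IsLaw.pi fun c => (h _).law) (h 0).law (h 0).small

theorem YY_pi_le_k {k : ℕ} {Ω : Fin k → Type} [∀ c, Fintype (Ω c)] {L : ∀ c, Ω c → Fin 3 → ℝ}
    (hF : F1k l0 kappa gam) (hk0 : 0 ≤ kappa) (hg : 0 ≤ gam) (h : ∀ c, GoodNeg l0 kappa (L c)) :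
    YY (piLaw L) ≤ ∑ c, YY (L c) := by
  induction k with
  | zero => rw [YY_pi_zero]; simp
  | succ k ih =>
    rw [Fin.sum_univ_succ]
    have h1 := YY_pi_split hF h
    have h2 := ih (L := fun c => L (Fin.succ c)) (fun c => h _)
    have h3 := HK_pi_nonneg (L := fun c => L (Fin.succ c)) hk0 (fun c => (h _).law)
      (fun c => (h _).hk)
    have h4 := YY_nonneg (IsLaw.pi fun c => (h (Fin.succ c)).law)
    have h5 := YY_nonneg (h 0).law
    have h6 : 0 ≤ YY (piLaw fun c => L (Fin.succ c)) * HK kappa (L 0) := mul_nonneg h4 (h 0).hk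
    have h7 : 0 ≤ YY (L 0) * HK kappa (piLaw fun c => L (Fin.succ c)) := mul_nonneg h5 h3
    have h8 : 0 ≤ gam * (YY (L 0) * HK kappa (piLaw fun c => L (Fin.succ c))
        + YY (piLaw fun c => L (Fin.succ c)) * HK kappa (L 0)) := by positivity
    linarith

/-- The saving from the first two factors. -/
theorem YY_pi_le2_k {k : ℕ} {Ω : Fin (k + 2) → Type} [∀ c, Fintype (Ω c)]
    {L : ∀ c, Ω c → Fin 3 → ℝ} (hF : F1k l0 kappa gam) (hk0 : 0 ≤ kappa) (hg : 0 ≤ gam)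
    (h : ∀ c, GoodNeg l0 kappa (L c)) :
    YY (piLaw L) ≤ ∑ c, YY (L c) - gam * (YY (L 1) * HK kappa (L 0)) := by
  rw [Fin.sum_univ_succ]
  have h1 := YY_pi_split hF h
  have h2 := YY_pi_le_k (L := fun c => L (Fin.succ c)) hF hk0 hg (fun c => h _)
  have h3 := HK_pi_nonneg (L := fun c => L (Fin.succ c)) hk0 (fun c => (h _).law)
    (fun c => (h _).hk)
  have h5 := YY_nonneg (h 0).law
  have h7 : 0 ≤ YY (L 0) * HK kappa (piLaw fun c => L (Fin.succ c)) := mul_nonneg h5 h3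
  have h8 : YY (L 1) ≤ YY (piLaw fun c => L (Fin.succ c)) :=
    YY_pi_ge (L := fun c => L (Fin.succ c)) (fun c => (h _).law)
  have h9 : YY (L 1) * HK kappa (L 0) ≤ YY (piLaw fun c => L (Fin.succ c)) * HK kappa (L 0) :=
    mul_le_mul_of_nonneg_right h8 (h 0).hk
  have h10 : gam * (YY (L 1) * HK kappa (L 0)) ≤ gam * (YY (L 0) * HK kappa (piLaw fun c => L (Fin.succ c))
        + YY (piLaw fun c => L (Fin.succ c)) * HK kappa (L 0)) :=
    mul_le_mul_of_nonneg_left (by linarith) hg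
  linarith

/-- After the channel the law of any truncated tree is in the class. -/
theorem Lt_goodNeg (hl0 : 0 < l0) (hl1 : l0 < 1 / 2) (hk : 2 * l0 / (1 - l0) ≤ kappa)
    (h0 : -l0 ≤ lam) (h1 : lam ≤ 0) {n : ℕ} (T : DTree n) :
    GoodNeg l0 kappa (chanLaw lam (Lt lam T)) := by
  induction T with
  | leaf =>
    rw [chan_leaf]
    exact GoodNeg.first hl0 hl1 hk h0 h1
  | node k child ih =>
    have hL : IsLaw (Lt lam (DTree.node k child)) := by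
      rw [Lt_node]
      exact IsLaw.pi fun c => (ih c).law
    exact GoodNeg.of_chan hL hl0 hl1 hk h0 h1

theorem Lt_isLawNeg (hl0 : 0 < l0) (hl1 : l0 < 1 / 2) (hk : 2 * l0 / (1 - l0) ≤ kappa)
    (h0 : -l0 ≤ lam) (h1 : lam ≤ 0) {n : ℕ} (T : DTree (n + 1)) :
    IsLaw (Lt lam T) := by
  cases T with
  | node k child =>
    rw [Lt_node]
    exact IsLaw.pi fun c => (Lt_goodNeg hl0 hl1 hk h0 h1 (child c)).law

/-- The plain recursive bound at a vertex. -/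
theorem y_node_leNeg (hF : F1k l0 kappa gam) (hk0 : 0 ≤ kappa) (hg : 0 ≤ gam) (hl0 : 0 < l0)
    (hl1 : l0 < 1 / 2) (hk : 2 * l0 / (1 - l0) ≤ kappa)
    (h0 : -l0 ≤ lam) (h1 : lam ≤ 0) {n : ℕ} (k : ℕ) (child : Fin k → DTree (n + 1)) :
    YY (Lt lam (DTree.node k child)) ≤ lam ^ 2 * ∑ c, YY (Lt lam (child c)) := by
  rw [Lt_node]
  refine (YY_pi_le_k hF hk0 hg (fun c => Lt_goodNeg hl0 hl1 hk h0 h1 (child c))).trans (le_of_eq ?_)
  rw [Finset.mul_sum]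
  exact Finset.sum_congr rfl fun c _ =>
    YY_chan' (Lt_isLawNeg hl0 hl1 hk h0 h1 (child c)) (by linarith) (by linarith)

/-- The recursive bound with saving at a vertex with at least two children. -/
theorem y_node_le2Neg (hF : F1k l0 kappa gam) (hk0 : 0 ≤ kappa) (hg : 0 ≤ gam) (hl0 : 0 < l0)
    (hl1 : l0 < 1 / 2) (hk : 2 * l0 / (1 - l0) ≤ kappa)
    (h0 : -l0 ≤ lam) (h1 : lam ≤ 0) {n : ℕ} (k : ℕ) (child : Fin (k + 2) → DTree (n + 1)) :
    YY (Lt lam (DTree.node (k + 2) child)) ≤ lam ^ 2 * ∑ c, YY (Lt lam (child c))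
      - gam * (kappa - 2 * l0 / (1 - l0)) * lam ^ 4
        * (YY (Lt lam (child 0)) * YY (Lt lam (child 1))) := by
  rw [Lt_node]
  have hm : -(1 / 2) ≤ lam := by linarith
  have hp : lam ≤ 1 := by linarith
  have h2 := YY_pi_le2_k (L := fun c => chanLaw lam (Lt lam (child c))) hF hk0 hg
    (fun c => Lt_goodNeg hl0 hl1 hk h0 h1 (child c))
  have e : ∑ c, YY (chanLaw lam (Lt lam (child c))) = lam ^ 2 * ∑ c, YY (Lt lam (child c)) := by
    rw [Finset.mul_sum]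
    exact Finset.sum_congr rfl fun c _ => YY_chan' (Lt_isLawNeg hl0 hl1 hk h0 h1 (child c)) hm hp
  rw [e, YY_chan' (Lt_isLawNeg hl0 hl1 hk h0 h1 (child 1)) hm hp] at h2
  have h3 := HK_chan (kappa := kappa) (Lt_isLawNeg hl0 hl1 hk h0 h1 (child 0)) hl0 hl1.le h0 h1
  have h7 : 0 ≤ lam ^ 2 * YY (Lt lam (child 1)) :=
    mul_nonneg (by positivity) (YY_nonneg (Lt_isLawNeg hl0 hl1 hk h0 h1 (child 1)))
  have h8 := mul_le_mul_of_nonneg_left h3 h7
  have h9 := mul_le_mul_of_nonneg_left h8 hg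
  refine h2.trans ?_
  have e2 : gam * (kappa - 2 * l0 / (1 - l0)) * lam ^ 4
        * (YY (Lt lam (child 0)) * YY (Lt lam (child 1)))
      = gam * (lam ^ 2 * YY (Lt lam (child 1))
        * ((kappa - 2 * l0 / (1 - l0)) * (lam ^ 2 * YY (Lt lam (child 0))))) := by ring
  rw [e2]
  linarith

theorem abs_YY_leNeg (hl0 : 0 < l0) (hl1 : l0 < 1 / 2) (hk : 2 * l0 / (1 - l0) ≤ kappa)
    (h0 : -l0 ≤ lam) (h1 : lam ≤ 0) {n : ℕ} (T : DTree (n + 1)) :
    |YY (Lt lam T)| ≤ 1 := by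
  have hL := Lt_isLawNeg hl0 hl1 hk h0 h1 T
  rw [abs_of_nonneg (YY_nonneg hL)]
  exact YY_le_one hL

theorem ybar_nonnegNeg {w : ℕ → ℝ} (hw0 : ∀ k, 0 ≤ w k) (hl0 : 0 < l0) (hl1 : l0 < 1 / 2)
    (hk : 2 * l0 / (1 - l0) ≤ kappa) (h0 : -l0 ≤ lam) (h1 : lam ≤ 0) (n : ℕ) :
    0 ≤ ybar w lam n :=
  tsum_nonneg fun T => mul_nonneg (prob_nonneg hw0 T) (YY_nonneg (Lt_isLawNeg hl0 hl1 hk h0 h1 T))

/-- The recursion for the mean of the functional. -/
theorem ybar_stepNeg (hF : F1k l0 kappa gam) (hk0 : 0 ≤ kappa) (hg : 0 ≤ gam) (hl0 : 0 < l0)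
    (hl1 : l0 < 1 / 2) (hk : 2 * l0 / (1 - l0) ≤ kappa)
    (h0 : -l0 ≤ lam) (h1 : lam ≤ 0) {w : ℕ → ℝ} (hw0 : ∀ k, 0 ≤ w k) (hw : HasSum w 1) {m : ℝ}
    (hm : HasSum (fun k : ℕ => (k : ℝ) * w k) m) (k₂ : ℕ) (n : ℕ) :
    ybar w lam (n + 1) ≤ m * (lam ^ 2 * ybar w lam n)
      - w (k₂ + 2) * (gam * (kappa - 2 * l0 / (1 - l0)) * lam ^ 4 * (ybar w lam n) ^ 2) := by
  obtain ⟨p, hpd⟩ : ∃ p : DTree (n + 1) → ℝ, p = fun T => T.prob w := ⟨_, rfl⟩
  have hp : HasSum p 1 := by rw [hpd]; exact prob_hasSum hw0 hw (n + 1)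
  have hp0 : ∀ T, 0 ≤ p T := fun T => by rw [hpd]; exact prob_nonneg hw0 T
  obtain ⟨y, hyd⟩ : ∃ y : DTree (n + 1) → ℝ, y = fun T => YY (Lt lam T) := ⟨_, rfl⟩
  have hy : ∀ T, |y T| ≤ 1 := fun T => by rw [hyd]; exact abs_YY_leNeg hl0 hl1 hk h0 h1 T
  obtain ⟨b, hb⟩ : ∃ b, b = E1 p y := ⟨_, rfl⟩
  have hbn : ybar w lam n = b := by rw [hb, hpd, hyd]; rfl
  obtain ⟨c₀, hc₀⟩ : ∃ c₀, c₀ = gam * (kappa - 2 * l0 / (1 - l0)) * lam ^ 4 := ⟨_, rfl⟩
  rw [← hc₀, hbn]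
  have hF' : ∀ T : DTree (n + 1 + 1), |YY (Lt lam T)| ≤ 1 :=
    fun T => abs_YY_leNeg hl0 hl1 hk h0 h1 T
  have hE := E1_succ hw0 hw hF'
  show E1 (fun T : DTree (n + 1 + 1) => T.prob w) (fun T => YY (Lt lam T)) ≤ _
  rw [hE, ← hpd]
  -- the expectation of the bound at a vertex with `k` children
  have hbdk : ∀ (k : ℕ) (t : Fin k → DTree (n + 1)), |YY (Lt lam (DTree.node k t))| ≤ 1 :=
    fun k t => hF' _
  have hsumb : ∀ (k : ℕ) (t : Fin k → DTree (n + 1)),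
      |lam ^ 2 * ∑ c, y (t c)| ≤ |lam ^ 2| * (k * 1) := by
    intro k t
    rw [abs_mul]
    refine mul_le_mul_of_nonneg_left ?_ (abs_nonneg _)
    refine (Finset.abs_sum_le_sum_abs _ _).trans ?_
    calc ∑ c, |y (t c)| ≤ ∑ _c : Fin k, (1 : ℝ) := Finset.sum_le_sum fun c _ => hy _
      _ = k * 1 := by simp
  have hsumE : ∀ k : ℕ, Ek p k (fun t => lam ^ 2 * ∑ c, y (t c)) = k * (lam ^ 2 * b) := by
    intro k
    rw [Ek_const_mul, Ek_sum hp0 hp hy k, ← hb]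
    ring
  have hk_le : ∀ k : ℕ, Ek p k (fun t => YY (Lt lam (DTree.node k t))) ≤ k * (lam ^ 2 * b) := by
    intro k
    rw [← hsumE k]
    refine Ek_mono hp0 hp k (hbdk k) (hsumb k) (fun t => ?_)
    rw [hyd]
    exact y_node_leNeg hF hk0 hg hl0 hl1 hk h0 h1 k t
  -- the saving at `k₂ + 2`
  have hk_le2 : Ek p (k₂ + 2) (fun t => YY (Lt lam (DTree.node (k₂ + 2) t)))
      ≤ ((k₂ + 2 : ℕ) : ℝ) * (lam ^ 2 * b) - c₀ * b ^ 2 := by
    have hprod : ∀ t : Fin (k₂ + 2) → DTree (n + 1), |y (t 0) * y (t 1)| ≤ 1 := by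
      intro t
      rw [abs_mul]
      exact mul_le_one₀ (hy _) (abs_nonneg _) (hy _)
    have hneg : ∀ t : Fin (k₂ + 2) → DTree (n + 1),
        |(- c₀) * (y (t 0) * y (t 1))| ≤ |(- c₀)| * 1 := by
      intro t
      rw [abs_mul]
      exact mul_le_mul_of_nonneg_left (hprod t) (abs_nonneg _)
    have hle : Ek p (k₂ + 2) (fun t => YY (Lt lam (DTree.node (k₂ + 2) t)))
        ≤ Ek p (k₂ + 2) (fun t => lam ^ 2 * ∑ c, y (t c) + (- c₀) * (y (t 0) * y (t 1))) := by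
      refine Ek_mono hp0 hp (k₂ + 2) (hbdk (k₂ + 2))
        (D := |lam ^ 2| * (((k₂ + 2 : ℕ) : ℝ) * 1) + |(- c₀)| * 1)
        (fun t => (abs_add_le _ _).trans (add_le_add (hsumb _ t) (hneg t))) (fun t => ?_)
      have := y_node_le2Neg hF hk0 hg hl0 hl1 hk h0 h1 k₂ t
      rw [← hc₀] at this
      rw [hyd]
      linarith
    rw [Ek_add hp0 hp (k₂ + 2) (hsumb (k₂ + 2)) hneg, hsumE, Ek_const_mul,
      Ek_two hp0 hp hy hy k₂, ← hb] at hle
    have e : b ^ 2 = b * b := by ring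
    rw [e]
    linarith
  -- summing over `k`
  have hS1 : HasSum (fun k : ℕ => w k * ((k : ℝ) * (lam ^ 2 * b))) (m * (lam ^ 2 * b)) := by
    have e : (fun k : ℕ => w k * ((k : ℝ) * (lam ^ 2 * b)))
        = fun k : ℕ => (k : ℝ) * w k * (lam ^ 2 * b) := by
      funext k; ring
    rw [e]
    exact hm.mul_right (lam ^ 2 * b)
  have hS2 : HasSum (fun k : ℕ => if k = k₂ + 2 then w (k₂ + 2) * (c₀ * b ^ 2) else 0)
      (w (k₂ + 2) * (c₀ * b ^ 2)) := hasSum_ite_eq _ _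
  have hS := hS1.sub hS2
  have hLs : Summable fun k => w k * Ek p k (fun t => YY (Lt lam (DTree.node k t))) := by
    refine Summable.of_norm_bounded (g := fun k => w k * 1) (hw.summable.mul_right 1) fun k => ?_
    rw [Real.norm_eq_abs, abs_mul, abs_of_nonneg (hw0 k)]
    exact mul_le_mul_of_nonneg_left (abs_Ek_le hp0 hp k (hbdk k)) (hw0 k)
  refine (hLs.tsum_le_tsum (fun k => ?_) hS.summable).trans (le_of_eq hS.tsum_eq)
  by_cases hk' : k = k₂ + 2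
  · subst hk'
    simp only [if_true]
    have := mul_le_mul_of_nonneg_left hk_le2 (hw0 (k₂ + 2))
    linarith
  · simp only [hk', if_false, sub_zero]
    exact mul_le_mul_of_nonneg_left (hk_le k) (hw0 k)

/-- The quantity `treeA` in terms of a positive law. -/
theorem treeA_eq' {lam : ℝ} {n : ℕ} (T : DTree n) (hL : IsLaw (Lt lam T)) :
    T.treeA 3 lam = ∑ τ, (1 / 6) *
      (|Lt lam T τ 0 - (Lt lam T τ 0 + Lt lam T τ 1 + Lt lam T τ 2) / 3|
      + |Lt lam T τ 1 - (Lt lam T τ 0 + Lt lam T τ 1 + Lt lam T τ 2) / 3|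
      + |Lt lam T τ 2 - (Lt lam T τ 0 + Lt lam T τ 1 + Lt lam T τ 2) / 3|) := by
  unfold DTree.treeA
  refine Finset.sum_congr rfl fun τ _ => ?_
  have p0 := hL.pos τ 0
  have p1 := hL.pos τ 1
  have p2 := hL.pos τ 2
  unfold Lt at p0 p1 p2 ⊢
  obtain ⟨x0, hx0⟩ : ∃ x, x = DTree.lik 3 lam T 0 τ := ⟨_, rfl⟩
  obtain ⟨x1, hx1⟩ : ∃ x, x = DTree.lik 3 lam T 1 τ := ⟨_, rfl⟩
  obtain ⟨x2, hx2⟩ : ∃ x, x = DTree.lik 3 lam T 2 τ := ⟨_, rfl⟩
  have hs : DTree.spinProb 3 lam T τ = (x0 + x1 + x2) / 3 := by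
    unfold DTree.spinProb
    rw [Fin.sum_univ_three, ← hx0, ← hx1, ← hx2]
    push_cast
    ring
  rw [hs, Fin.sum_univ_three, ← hx0, ← hx1, ← hx2]
  rw [← hx0] at p0
  rw [← hx1] at p1
  rw [← hx2] at p2
  obtain ⟨s, hss⟩ : ∃ s, s = (x0 + x1 + x2) / 3 := ⟨_, rfl⟩
  have hs0 : 0 < s := by rw [hss]; positivity
  rw [← hss]
  have key : ∀ x : ℝ, s * |(1 / ((3 : ℕ) : ℝ)) * x / s - 1 / ((3 : ℕ) : ℝ)| = (1 / 3) * |x - s| := by
    intro x
    have e : (1 / ((3 : ℕ) : ℝ)) * x / s - 1 / ((3 : ℕ) : ℝ) = (x - s) * (1 / (3 * s)) := by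
      push_cast
      field_simp
    rw [e, abs_mul, abs_of_pos (by positivity : 0 < 1 / (3 * s))]
    field_simp
  have e3 : s * ((1 / 2) * (|(1 / ((3 : ℕ) : ℝ)) * x0 / s - 1 / ((3 : ℕ) : ℝ)|
      + |(1 / ((3 : ℕ) : ℝ)) * x1 / s - 1 / ((3 : ℕ) : ℝ)|
      + |(1 / ((3 : ℕ) : ℝ)) * x2 / s - 1 / ((3 : ℕ) : ℝ)|))
      = (1 / 2) * (s * |(1 / ((3 : ℕ) : ℝ)) * x0 / s - 1 / ((3 : ℕ) : ℝ)|
      + s * |(1 / ((3 : ℕ) : ℝ)) * x1 / s - 1 / ((3 : ℕ) : ℝ)|
      + s * |(1 / ((3 : ℕ) : ℝ)) * x2 / s - 1 / ((3 : ℕ) : ℝ)|) := by ring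
  rw [e3, key, key, key]
  ring

/-! ### Bounds of `treeA` for all admissible eigenvalues -/

theorem channel_nonneg' {lam : ℝ} (h0 : -(1 / 2) ≤ lam) (h1 : lam ≤ 1) (i j : Fin 3) :
    0 ≤ pottsChannel 3 lam i j := by
  unfold pottsChannel
  push_cast
  split_ifs <;> linarith

theorem lik_nonneg' {lam : ℝ} (h0 : -(1 / 2) ≤ lam) (h1 : lam ≤ 1) {n : ℕ} (T : DTree n) :
    ∀ i τ, 0 ≤ DTree.lik 3 lam T i τ := by
  induction T with
  | leaf =>
    intro i (τ : Fin 3)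
    rw [lik_leaf]
    split_ifs <;> norm_num
  | node k child ih =>
    intro i τ
    simp only [DTree.lik]
    exact Finset.prod_nonneg fun c _ => Finset.sum_nonneg fun j _ =>
      mul_nonneg (channel_nonneg' h0 h1 i j) (ih c j _)

theorem treeA_nonneg' {lam : ℝ} {n : ℕ} (T : DTree n)
    (hlik : ∀ i τ, 0 ≤ DTree.lik 3 lam T i τ) : 0 ≤ T.treeA 3 lam := by
  unfold DTree.treeA
  refine Finset.sum_nonneg fun τ _ => mul_nonneg ?_ (by positivity)
  unfold DTree.spinProb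
  refine Finset.sum_nonneg fun i _ => mul_nonneg (by positivity) (hlik i τ)

theorem treeA_le_one' {lam : ℝ} (h0 : -(1 / 2) ≤ lam) (h1 : lam ≤ 1) {n : ℕ} (T : DTree n) :
    T.treeA 3 lam ≤ 1 := by
  have hl := lik_nonneg' h0 h1 T
  have hterm : ∀ τ, DTree.spinProb 3 lam T τ *
      ((1 / 2) * ∑ i : Fin 3,
      |(1 / ((3 : ℕ) : ℝ)) * DTree.lik 3 lam T i τ / DTree.spinProb 3 lam T τ - 1 / ((3 : ℕ) : ℝ)|)
      ≤ DTree.spinProb 3 lam T τ := by
    intro τ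
    have hP0 : 0 ≤ DTree.spinProb 3 lam T τ :=
      Finset.sum_nonneg fun i _ => mul_nonneg (by positivity) (hl i τ)
    rcases eq_or_lt_of_le hP0 with hP | hP
    · rw [← hP]; simp
    · have hsum : ∑ i : Fin 3, ((1 / ((3 : ℕ) : ℝ)) * DTree.lik 3 lam T i τ
          / DTree.spinProb 3 lam T τ + 1 / ((3 : ℕ) : ℝ)) = 2 := by
        rw [Finset.sum_add_distrib, ← Finset.sum_div]
        have : ∑ i : Fin 3, (1 / ((3 : ℕ) : ℝ)) * DTree.lik 3 lam T i τ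
            = DTree.spinProb 3 lam T τ := rfl
        rw [this, div_self hP.ne']
        simp
        norm_num
      have hle : ∑ i : Fin 3,
          |(1 / ((3 : ℕ) : ℝ)) * DTree.lik 3 lam T i τ / DTree.spinProb 3 lam T τ - 1 / ((3 : ℕ) : ℝ)|
          ≤ 2 := by
        rw [← hsum]
        refine Finset.sum_le_sum fun i _ => ?_
        have a : 0 ≤ (1 / ((3 : ℕ) : ℝ)) * DTree.lik 3 lam T i τ / DTree.spinProb 3 lam T τ :=
          div_nonneg (mul_nonneg (by positivity) (hl i τ)) hP.le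
        have b : (0 : ℝ) ≤ 1 / ((3 : ℕ) : ℝ) := by positivity
        rw [abs_le]
        constructor <;> linarith
      nlinarith
  unfold DTree.treeA
  refine (Finset.sum_le_sum fun τ _ => hterm τ).trans (le_of_eq ?_)
  unfold DTree.spinProb
  rw [Finset.sum_comm]
  have e : ∀ i : Fin 3, ∑ τ, (1 / ((3 : ℕ) : ℝ)) * DTree.lik 3 lam T i τ = 1 / ((3 : ℕ) : ℝ) := by
    intro i
    rw [← Finset.mul_sum, lik_norm lam T i, mul_one]
  simp only [e]
  simp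

theorem abs_treeA_le' {lam : ℝ} (h0 : -(1 / 2) ≤ lam) (h1 : lam ≤ 1) {n : ℕ} (T : DTree n) :
    |T.treeA 3 lam| ≤ 1 := by
  rw [abs_of_nonneg (treeA_nonneg' T (lik_nonneg' h0 h1 T))]
  exact treeA_le_one' h0 h1 T

/-- Summability of the series defining `a_n`. -/
theorem gwA_summable' {w : ℕ → ℝ} (hw0 : ∀ k, 0 ≤ w k) (hw : HasSum w 1) {lam : ℝ}
    (h0 : -(1 / 2) ≤ lam) (h1 : lam ≤ 1) (n : ℕ) :
    Summable fun T : DTree n => T.prob w * T.treeA 3 lam :=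
  E1_summable (prob_nonneg hw0) (prob_hasSum hw0 hw n) (abs_treeA_le' h0 h1)

theorem treeA_le_surv' {lam : ℝ} (h0 : -(1 / 2) ≤ lam) (h1 : lam ≤ 1) {n : ℕ} (T : DTree n) :
    T.treeA 3 lam ≤ surv T := by
  rcases surv_values T with h | h
  · rw [treeA_eq_zero lam T h, h]
  · rw [h]; exact treeA_le_one' h0 h1 T

/-- A Poisson tree of mean at most one dies out, hence no information survives. -/
theorem gw_extinct' {d : ℝ} (hd : 0 ≤ d) (hd1 : d ≤ 1) {lam : ℝ} (h0 : -(1 / 2) ≤ lam)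
    (h1 : lam ≤ 1) : Tendsto (gwA 3 (poissonWeight d) lam) atTop (𝓝 0) := by
  have hw0 := poisson_nonneg hd
  have hw := poisson_hasSum d
  have hs0 := sbar_nonneg hw0
  have hs1 := sbar_le_one hw0 hw
  have hlim : Tendsto (sbar (poissonWeight d)) atTop (𝓝 0) := by
    refine tendsto_zero_of_cubic (c := 1 / 3) (by norm_num) hs0 (fun n => ?_)
    rw [sbar_poisson hd]
    obtain ⟨s, hs⟩ : ∃ s, s = sbar (poissonWeight d) n := ⟨_, rfl⟩
    rw [← hs]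
    have h2 : 0 ≤ s := by rw [hs]; exact hs0 n
    have h3 : s ≤ 1 := by rw [hs]; exact hs1 n
    have h4 := exp_neg_ge h2 h3
    have h5 : Real.exp (-s) ≤ Real.exp (-(d * s)) := by
      apply Real.exp_le_exp.2
      nlinarith
    have e : 1 / 3 * s ^ 3 = s ^ 3 / 3 := by ring
    rw [e]
    linarith
  refine squeeze_zero (fun n => ?_) (fun n => ?_) hlim
  · exact tsum_nonneg fun T => mul_nonneg (prob_nonneg hw0 T)
      (treeA_nonneg' T (lik_nonneg' h0 h1 T))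
  · refine E1_mono (prob_nonneg hw0) (prob_hasSum hw0 hw n) (abs_treeA_le' h0 h1) abs_surv_le
      (fun T => treeA_le_surv' h0 h1 T)

/-- The bound of `a_n` by the functional. -/
theorem gwA_sq_leNeg {w : ℕ → ℝ} (hw0 : ∀ k, 0 ≤ w k) (hw : HasSum w 1) (hl0 : 0 < l0)
    (hl1 : l0 < 1 / 2) (hk : 2 * l0 / (1 - l0) ≤ kappa) (h0 : -l0 ≤ lam) (h1 : lam ≤ 0) (n : ℕ) :
    (gwA 3 w lam (n + 1)) ^ 2 ≤ ybar w lam n / 2 := by
  have hm : -(1 / 2) ≤ lam := by linarith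
  have hp' : lam ≤ 1 := by linarith
  have hp := prob_hasSum hw0 hw (n + 1)
  have hp0 : ∀ T : DTree (n + 1), 0 ≤ T.prob w := prob_nonneg hw0
  have h2 := E1_sq_ge hp0 hp (f := fun T => T.treeA 3 lam) (abs_treeA_le' hm hp')
  have hle : E1 (fun T : DTree (n + 1) => T.prob w) (fun T => (T.treeA 3 lam) ^ 2)
      ≤ E1 (fun T : DTree (n + 1) => T.prob w) (fun T => (1 / 2) * YY (Lt lam T)) := by
    refine E1_mono hp0 hp (C := 1) (D := 1) (fun T => ?_) (fun T => ?_) (fun T => ?_)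
    · rw [abs_pow]
      exact pow_le_one₀ (abs_nonneg _) (abs_treeA_le' hm hp' T)
    · rw [abs_mul, abs_of_nonneg (by norm_num : (0 : ℝ) ≤ 1 / 2)]
      have := abs_YY_leNeg hl0 hl1 hk h0 h1 T
      linarith
    · rw [treeA_eq' T (Lt_isLawNeg hl0 hl1 hk h0 h1 T)]
      have := sq_sum_le (Lt_isLawNeg hl0 hl1 hk h0 h1 T)
      linarith
  rw [E1_const_mul] at hle
  show (E1 (fun T : DTree (n + 1) => T.prob w) (fun T => T.treeA 3 lam)) ^ 2 ≤ _
  unfold ybar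
  linarith

/-- Nonreconstruction for a general offspring law, given the certificate. -/
theorem gw_mainNeg (hF : F1k l0 kappa gam) (hk0 : 0 ≤ kappa) (hg : 0 < gam) (hl0 : 0 < l0)
    (hl1 : l0 < 1 / 2) (hk : 2 * l0 / (1 - l0) < kappa)
    (h0 : -l0 ≤ lam) (h1 : lam ≤ 0) {w : ℕ → ℝ} (hw0 : ∀ k, 0 ≤ w k) (hw : HasSum w 1) {m : ℝ}
    (hm : HasSum (fun k : ℕ => (k : ℝ) * w k) m) (k₂ : ℕ) (hk₂ : 0 < w (k₂ + 2))
    (hlam : m * lam ^ 2 ≤ 1) :
    Tendsto (gwA 3 w lam) atTop (𝓝 0) := by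
  have hm0 : 0 ≤ m := hm.nonneg fun k => mul_nonneg (Nat.cast_nonneg k) (hw0 k)
  have hy0 := ybar_nonnegNeg (kappa := kappa) hw0 hl0 hl1 hk.le h0 h1
  have hstep := ybar_stepNeg hF hk0 hg.le hl0 hl1 hk.le h0 h1 hw0 hw hm k₂
  have hylim : Tendsto (ybar w lam) atTop (𝓝 0) := by
    rcases eq_or_lt_of_le h1 with h00 | h00
    · subst h00
      refine (tendsto_add_atTop_iff_nat 1).1 ?_
      refine tendsto_const_nhds.congr fun n => ?_
      have := hstep n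
      have h2 := hy0 (n + 1)
      norm_num at this
      linarith
    · have hθ : 0 < kappa - 2 * l0 / (1 - l0) := by linarith
      have hlam4 : 0 < lam ^ 4 := by
        have : lam ≠ 0 := h00.ne
        positivity
      refine tendsto_zero_of_quad
        (c := w (k₂ + 2) * (gam * (kappa - 2 * l0 / (1 - l0)) * lam ^ 4)) (by positivity) hy0
        (fun n => ?_)
      have h2 := hstep n
      have h3 : m * (lam ^ 2 * ybar w lam n) ≤ ybar w lam n := by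
        have := mul_le_mul_of_nonneg_right hlam (hy0 n)
        nlinarith
      have e : w (k₂ + 2) * (gam * (kappa - 2 * l0 / (1 - l0)) * lam ^ 4) * (ybar w lam n) ^ 2
          = w (k₂ + 2) * (gam * (kappa - 2 * l0 / (1 - l0)) * lam ^ 4 * (ybar w lam n) ^ 2) := by
        ring
      rw [e]
      linarith
  refine (tendsto_add_atTop_iff_nat 1).1 ?_
  have hsq : Tendsto (fun n => Real.sqrt (ybar w lam n / 2)) atTop (𝓝 0) := by
    have := (Real.continuous_sqrt.tendsto (0 / 2)).comp (hylim.div_const 2)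
    have e : Real.sqrt (0 / 2) = 0 := by simp
    rw [e] at this
    exact this
  have hm' : -(1 / 2) ≤ lam := by linarith
  have hp' : lam ≤ 1 := by linarith
  refine squeeze_zero (fun n => ?_) (fun n => ?_) hsq
  · exact tsum_nonneg fun T => mul_nonneg (prob_nonneg hw0 T)
      (treeA_nonneg' T (lik_nonneg' hm' hp' T))
  · exact Real.le_sqrt_of_sq_le (gwA_sq_leNeg hw0 hw hl0 hl1 hk.le h0 h1 n)

/-- Main theorem for negative eigenvalue, given the pointwise certificate `F1k`. -/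
theorem neg_main (l0 kappa gam : ℝ) (hl0 : 0 < l0) (hl1 : l0 < 1 / 2)
    (hk : 2 * l0 / (1 - l0) < kappa) (hg : 0 < gam) (hF : F1k l0 kappa gam) :
    (∀ d : ℕ, 2 ≤ d → ∀ lam : ℝ, -l0 ≤ lam → lam ≤ 0 → (d : ℝ) * lam ^ 2 ≤ 1 →
      Tendsto (reconA 3 d lam) atTop (𝓝 0))
    ∧ (∀ d : ℝ, 0 < d → ∀ lam : ℝ, -(1 / 2) ≤ lam → lam ≤ 0 → d * lam ^ 2 ≤ 1 →
      (d ≤ 1 ∨ -l0 ≤ lam) →
      (∀ n, Summable fun T : DTree n => T.prob (poissonWeight d) * T.treeA 3 lam)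
      ∧ Tendsto (gwA 3 (poissonWeight d) lam) atTop (𝓝 0)) := by
  have hk0 : 0 ≤ kappa := by
    have : 0 ≤ 2 * l0 / (1 - l0) := by
      have : 0 < 1 - l0 := by linarith
      positivity
    linarith
  refine ⟨fun d hd lam h0 h1 hlam =>
    reconA_tendsto_zeroNeg hF hg hd hl0 hl1 hk hk0 h0 h1 hlam, ?_⟩
  intro d hd lam hm h1 hlam hcase
  refine ⟨gwA_summable' (poisson_nonneg hd.le) (poisson_hasSum d) hm (by linarith), ?_⟩
  rcases hcase with hd1 | h0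
  · exact gw_extinct' hd.le hd1 hm (by linarith)
  · refine gw_mainNeg hF hk0 hg hl0 hl1 hk h0 h1 (poisson_nonneg hd.le) (poisson_hasSum d)
      (poisson_mean d) 0 ?_ hlam
    unfold poissonWeight
    positivity

end

end Vale.Agent.P154
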