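import Vale.Agent.P154.Q4.Poly
import Vale.Agent.P154.Q4.Psd

/-!
Sums of squares of integer combinations of monomials, checked by computation.
-/

namespace Vale.Agent.P154.Neg

open Vale.Agent.P154.Q4

/-- A block of a certificate: a multiplier, a list of monomials and a positive semidefinite
integer matrix with its certificate. -/
structure LBlock where
  im : Nat
  gens : List Mono
  rows : List (List Int)
  N : Int
  vs : List (List Int)

/-- The off-diagonal terms of a row of a quadratic form. -/
def lrow (g : Mono) : List Int → List Mono → List Poly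
  | q :: qs, h :: hs => [(Mono.mul g h, 2 * q)] :: lrow g qs hs
  | _, _ => []

/-- The terms of a quadratic form. -/
def lq : List (List Int) → List Mono → List Poly
  | row :: rows, g :: gs => [(Mono.mul g g, hd row)] :: (lrow g (tl row) gs ++ lq rows gs)
  | _, _ => []

theorem evalList_append' (l m : List Poly) (p : Pt) :
    Poly.evalList (l ++ m) p = Poly.evalList l p + Poly.evalList m p := by
  simp [Poly.evalList]

theorem evalList_lrow (g : Mono) (qs : List Int) (hs : List Mono) (p : Pt) :
    Poly.evalList (lrow g qs hs) p = 2 * g.eval p * dotR qs (hs.map fun h => h.eval p) := by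
  induction qs generalizing hs with
  | nil => simp [lrow, Poly.evalList]
  | cons q qs ih =>
    cases hs with
    | nil => simp [lrow, Poly.evalList]
    | cons h hs =>
      have e := ih hs
      simp only [Poly.evalList] at e
      simp only [lrow, Poly.evalList, List.map_cons, List.sum_cons, e, dotR_cons, Poly.eval_cons,
        Poly.eval_nil, Mono.eval_mul]
      push_cast
      ring

theorem evalList_lq (rows : List (List Int)) (gs : List Mono) (p : Pt) :
    Poly.evalList (lq rows gs) p = qformU rows (gs.map fun h => h.eval p) := by
  induction rows generalizing gs with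
  | nil => simp [lq, Poly.evalList]
  | cons row rows ih =>
    cases gs with
    | nil => simp [lq, Poly.evalList]
    | cons g gs =>
      have e : lq (row :: rows) (g :: gs)
          = [(Mono.mul g g, hd row)] :: (lrow g (tl row) gs ++ lq rows gs) := rfl
      have e2 : Poly.evalList ([(Mono.mul g g, hd row)] :: (lrow g (tl row) gs ++ lq rows gs)) p
          = Poly.eval [(Mono.mul g g, hd row)] p
            + Poly.evalList (lrow g (tl row) gs ++ lq rows gs) p := by
        simp [Poly.evalList]
      rw [e, e2, evalList_append', ih, evalList_lrow]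
      simp only [List.map_cons, qformU_cons, Poly.eval_cons, Poly.eval_nil, Mono.eval_mul]
      ring

/-- The polynomial of a block. -/
def LBlock.poly (mults : List Poly) (B : LBlock) : Poly :=
  Poly.mul (mults.getD B.im []) (Poly.sum (lq B.rows B.gens))

/-- The check of a certificate. -/
def lcertOK (mults : List Poly) (blocks : List LBlock) (target : Poly) : Bool :=
  blocks.all (fun B => psdOK B.N B.rows B.vs) &&
    Poly.isZero (Poly.add target (Poly.smul (-1) (Poly.sum (blocks.map (LBlock.poly mults)))))

theorem lgetD_nonneg (mults : List Poly) (p : Pt) (hm : ∀ P ∈ mults, 0 ≤ Poly.eval P p) (i : Nat) :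
    0 ≤ Poly.eval (mults.getD i []) p := by
  rcases lt_or_ge i mults.length with h | h
  · rw [List.getD_eq_getElem _ _ h]
    exact hm _ (List.getElem_mem h)
  · rw [List.getD_eq_default _ _ h]
    simp

theorem levalList_nonneg (l : List Poly) (p : Pt) (h : ∀ P ∈ l, 0 ≤ Poly.eval P p) :
    0 ≤ Poly.evalList l p := by
  induction l with
  | nil => simp [Poly.evalList]
  | cons P l ih =>
    have h1 := h P (by simp)
    have h2 := ih fun Q hQ => h Q (by simp [hQ])
    simp only [Poly.evalList, List.map_cons, List.sum_cons] at h2 ⊢
    linarith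

theorem lcert_nonneg (mults : List Poly) (blocks : List LBlock) (target : Poly)
    (hc : lcertOK mults blocks target = true) (p : Pt)
    (hm : ∀ P ∈ mults, 0 ≤ Poly.eval P p) : 0 ≤ Poly.eval target p := by
  simp only [lcertOK, Bool.and_eq_true, List.all_eq_true] at hc
  have h0 := Poly.eval_of_isZero hc.2 p
  rw [Poly.eval_add, Poly.eval_smul, Poly.eval_sum] at h0
  have h1 : 0 ≤ Poly.evalList (blocks.map (LBlock.poly mults)) p := by
    refine levalList_nonneg _ _ fun P hP => ?_
    obtain ⟨B, hB, rfl⟩ := List.mem_map.mp hP
    unfold LBlock.poly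
    rw [Poly.eval_mul, Poly.eval_sum, evalList_lq]
    exact mul_nonneg (lgetD_nonneg _ _ hm _) (psdOK_nonneg (hc.1 B hB) _)
  push_cast at h0
  linarith

theorem lcert_nonneg' (mults : List Poly) (blocks : List LBlock) (target : Poly)
    (hpsd : ∀ B ∈ blocks, psdOK B.N B.rows B.vs = true)
    (hid : Poly.isZero (Poly.add target (Poly.smul (-1) (Poly.sum (blocks.map (LBlock.poly mults)))))
      = true) (p : Pt)
    (hm : ∀ P ∈ mults, 0 ≤ Poly.eval P p) : 0 ≤ Poly.eval target p := by
  refine lcert_nonneg mults blocks target ?_ p hm
  simp only [lcertOK, Bool.and_eq_true, List.all_eq_true]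
  exact ⟨hpsd, hid⟩

/-- Decoding of a signed entry. -/
def decI (x : Nat) : Int :=
  bif Nat.beq (x % 2) 1 then -(((x / 2 : Nat) : Int)) else ((x / 2 : Nat) : Int)

/-- Reads a row of `n` entries of `w` bits. -/
def readRow (w : Nat) : Nat → Nat → List Int
  | 0, _ => []
  | n + 1, d => decI (d % 2 ^ w) :: readRow w n (d / 2 ^ w)

/-- Reads rows of the given lengths. -/
def readRows (w : Nat) : List Nat → Nat → List (List Int)
  | [], _ => []
  | l :: ls, d => readRow w l (d % 2 ^ (w * l)) :: readRows w ls (d / 2 ^ (w * l))

/-- The lengths of a triangular matrix of size `n`. -/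
def triL : Nat → List Nat
  | 0 => []
  | n + 1 => (n + 1) :: triL n

end Vale.Agent.P154.Neg
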