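import Vale.Agent.P154.GWMain

/-!
Three-state Potts channel with negative eigenvalue: laws.

The class is `HK = HH + kappa * YY`, and the certificate is the pointwise inequality `F1k` below,
kept as an explicit hypothesis in this file.
-/

namespace Vale.Agent.P154

noncomputable section

open Finset Filter Topology

/-- The pointwise certificate: subadditivity of `yy` with a correction, for a second factor with
small atoms. -/
def F1k (l0 kappa gam : ℝ) : Prop :=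
  ∀ ⦃a1 a2 a3 b1 b2 b3 : ℝ⦄, 0 < a1 → 0 < a2 → 0 < a3 → 0 < b1 → 0 < b2 → 0 < b3 →
    b1 ≤ (1 + l0) * ((b1 + b2 + b3) / 3) → b2 ≤ (1 + l0) * ((b1 + b2 + b3) / 3) →
    b3 ≤ (1 + l0) * ((b1 + b2 + b3) / 3) →
    sym6 yy a1 a2 a3 b1 b2 b3 / 6
      ≤ (b1 + b2 + b3) / 3 * yy a1 a2 a3 + (a1 + a2 + a3) / 3 * yy b1 b2 b3
        - gam * (yy b1 b2 b3 * (hh a1 a2 a3 + kappa * yy a1 a2 a3)
          + yy a1 a2 a3 * (hh b1 b2 b3 + kappa * yy b1 b2 b3))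

variable {Ω Ω₁ Ω₂ Ω' : Type*} [Fintype Ω] [Fintype Ω₁] [Fintype Ω₂] [Fintype Ω']

/-- The class function on laws. -/
def HK (kappa : ℝ) (L : Ω → Fin 3 → ℝ) : ℝ := HH L + kappa * YY L

/-- All coordinates of all atoms of the law satisfy `coordinate ≤ (1 + l0) * mass`. -/
def SmallAtoms (l0 : ℝ) (L : Ω → Fin 3 → ℝ) : Prop :=
  ∀ τ i, L τ i ≤ (1 + l0) * ((L τ 0 + L τ 1 + L τ 2) / 3)

theorem HK_eq (kappa : ℝ) {L : Ω → Fin 3 → ℝ} (h : IsLaw L) :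
    HK kappa L = MM L - 1 + (2 + kappa) * YY L := by
  unfold HK
  rw [HH_eq h]
  ring

theorem HK_comp_equiv (kappa : ℝ) (L : Ω → Fin 3 → ℝ) (E : Ω' ≃ Ω) :
    HK kappa (fun τ i => L (E τ) i) = HK kappa L := by
  unfold HK
  rw [HH_comp_equiv, YY_comp_equiv]

/-- Closure of the class under products. -/
theorem HK_prod_nonneg {kappa : ℝ} (hk : 0 ≤ kappa) {L₁ : Ω₁ → Fin 3 → ℝ} {L₂ : Ω₂ → Fin 3 → ℝ}
    (h₁ : IsLaw L₁) (h₂ : IsLaw L₂) (hη₁ : 0 ≤ HK kappa L₁) (hη₂ : 0 ≤ HK kappa L₂) :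
    0 ≤ HK kappa (prodLaw L₁ L₂) := by
  rw [HK_eq kappa (h₁.prod h₂)]
  rw [HK_eq kappa h₁] at hη₁
  rw [HK_eq kappa h₂] at hη₂
  have hY1 := YY_prod_ge h₁ h₂
  have hY2 : YY L₂ ≤ YY (prodLaw L₁ L₂) := by
    rw [YY_prod_comm]; exact YY_prod_ge h₂ h₁
  have hY3 := YY_prod_ge2 h₁ h₂
  have hM := MM_prod_ge h₁ h₂
  have hM0 := MM_nonneg (h₁.prod h₂)
  have hM1 := MM_nonneg h₁
  have hM2 := MM_nonneg h₂
  have hY10 := YY_nonneg h₁
  have hY20 := YY_nonneg h₂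
  obtain ⟨c, hc⟩ : ∃ c, c = 2 + kappa := ⟨_, rfl⟩
  have hc2 : 2 ≤ c := by linarith
  rw [← hc] at hη₁ hη₂ ⊢
  have hmul1 : c * YY L₁ ≤ c * YY (prodLaw L₁ L₂) :=
    mul_le_mul_of_nonneg_left hY1 (by linarith)
  have hmul2 : c * YY L₂ ≤ c * YY (prodLaw L₁ L₂) :=
    mul_le_mul_of_nonneg_left hY2 (by linarith)
  by_cases c1 : 1 ≤ c * YY L₁
  · linarith
  by_cases c2 : 1 ≤ c * YY L₂
  · linarith
  push Not at c1 c2
  have h3 : (1 - c * YY L₁) * (1 - c * YY L₂) ≤ MM L₁ * MM L₂ :=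
    mul_le_mul (by linarith) (by linarith) (by linarith) hM1
  have hmul3 : c * (YY L₁ + YY L₂ - 2 * YY L₁ * YY L₂) ≤ c * YY (prodLaw L₁ L₂) :=
    mul_le_mul_of_nonneg_left hY3 (by linarith)
  have h4 : 0 ≤ c * (c - 2) * (YY L₁ * YY L₂) := by
    have : 0 ≤ c - 2 := by linarith
    have : 0 ≤ c := by linarith
    positivity
  nlinarith

/-- Subadditivity with correction, for laws, when the second factor has small atoms. -/
theorem YY_prod_le_k {l0 kappa gam : ℝ} (hF : F1k l0 kappa gam) {L₁ : Ω₁ → Fin 3 → ℝ}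
    {L₂ : Ω₂ → Fin 3 → ℝ} (h₁ : IsLaw L₁) (h₂ : IsLaw L₂) (hs : SmallAtoms l0 L₂) :
    YY (prodLaw L₁ L₂)
      ≤ YY L₁ + YY L₂ - gam * (YY L₂ * HK kappa L₁ + YY L₁ * HK kappa L₂) := by
  have hin : ∀ τ, ∑ σ, yy (L₁ τ 0 * L₂ σ 0) (L₁ τ 1 * L₂ σ 1) (L₁ τ 2 * L₂ σ 2)
      ≤ yy (L₁ τ 0) (L₁ τ 1) (L₁ τ 2) + (L₁ τ 0 + L₁ τ 1 + L₁ τ 2) / 3 * YY L₂
        - gam * (YY L₂ * (hh (L₁ τ 0) (L₁ τ 1) (L₁ τ 2)
            + kappa * yy (L₁ τ 0) (L₁ τ 1) (L₁ τ 2))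
          + yy (L₁ τ 0) (L₁ τ 1) (L₁ τ 2) * HK kappa L₂) := by
    intro τ
    have hs6 := sum_sym6 h₂ yy (L₁ τ 0) (L₁ τ 1) (L₁ τ 2)
    have hp : ∀ σ, sym6 yy (L₁ τ 0) (L₁ τ 1) (L₁ τ 2) (L₂ σ 0) (L₂ σ 1) (L₂ σ 2) / 6
        ≤ (L₂ σ 0 + L₂ σ 1 + L₂ σ 2) / 3 * yy (L₁ τ 0) (L₁ τ 1) (L₁ τ 2)
          + (L₁ τ 0 + L₁ τ 1 + L₁ τ 2) / 3 * yy (L₂ σ 0) (L₂ σ 1) (L₂ σ 2)
          - gam * (yy (L₂ σ 0) (L₂ σ 1) (L₂ σ 2) * (hh (L₁ τ 0) (L₁ τ 1) (L₁ τ 2)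
              + kappa * yy (L₁ τ 0) (L₁ τ 1) (L₁ τ 2))
            + yy (L₁ τ 0) (L₁ τ 1) (L₁ τ 2) * (hh (L₂ σ 0) (L₂ σ 1) (L₂ σ 2)
              + kappa * yy (L₂ σ 0) (L₂ σ 1) (L₂ σ 2))) :=
      fun σ => hF (h₁.pos τ 0) (h₁.pos τ 1) (h₁.pos τ 2) (h₂.pos σ 0) (h₂.pos σ 1) (h₂.pos σ 2)
        (hs σ 0) (hs σ 1) (hs σ 2)
    have hsum := Finset.sum_le_sum fun σ (_ : σ ∈ (Finset.univ : Finset Ω₂)) => hp σ
    rw [← Finset.sum_div, hs6] at hsum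
    simp only [Finset.sum_sub_distrib, Finset.sum_add_distrib, ← Finset.sum_mul,
      ← Finset.mul_sum, sum_mass h₂] at hsum
    unfold HK YY HH
    linarith
  unfold YY at *
  rw [prod_sum]
  have hsum := Finset.sum_le_sum fun τ (_ : τ ∈ (Finset.univ : Finset Ω₁)) => hin τ
  refine hsum.trans (le_of_eq ?_)
  simp only [Finset.sum_sub_distrib, Finset.sum_add_distrib, ← Finset.sum_mul, ← Finset.mul_sum,
    sum_mass h₁]
  unfold HK YY HH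
  ring

theorem HK_pow_zero (kappa : ℝ) (L : Ω → Fin 3 → ℝ) : HK kappa (powLaw L 0) = 0 := by
  unfold HK
  rw [HH_pow_zero, YY_pow_zero]
  ring

theorem HK_pow_nonneg {kappa : ℝ} (hk : 0 ≤ kappa) {L : Ω → Fin 3 → ℝ} (h : IsLaw L)
    (hη : 0 ≤ HK kappa L) (k : ℕ) : 0 ≤ HK kappa (powLaw L k) := by
  induction k with
  | zero => rw [HK_pow_zero]
  | succ k ih =>
    rw [powLaw_succ, HK_comp_equiv]
    exact HK_prod_nonneg hk h (h.pow k) hη ih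

/-- The bound for powers: subadditive with a saving as soon as `k ≥ 2`. -/
theorem YY_pow_le_k {l0 kappa gam : ℝ} (hF : F1k l0 kappa gam) (hk : 0 ≤ kappa) (hg : 0 ≤ gam)
    {L : Ω → Fin 3 → ℝ} (h : IsLaw L) (hs : SmallAtoms l0 L) (hη : 0 ≤ HK kappa L) (k : ℕ) :
    YY (powLaw L (k + 2)) ≤ (k + 2) * YY L - gam * (k + 1) * (YY L * HK kappa L) := by
  have hY := YY_nonneg h
  have step : ∀ j, YY (powLaw L (j + 1)) ≤ YY (powLaw L j) + YY L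
      - gam * (YY L * HK kappa (powLaw L j) + YY (powLaw L j) * HK kappa L) := by
    intro j
    rw [powLaw_succ, YY_comp_equiv, YY_prod_comm]
    exact YY_prod_le_k hF (h.pow j) h hs
  have base : YY (powLaw L 1) ≤ YY L := by
    have := step 0
    rw [YY_pow_zero, HK_pow_zero] at this
    simpa using this
  have hsave : ∀ j, YY (powLaw L (j + 1 + 1)) ≤ YY (powLaw L (j + 1)) + YY L
      - gam * (YY L * HK kappa L) := by
    intro j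
    have h1 := step (j + 1)
    have h2 : YY L ≤ YY (powLaw L (j + 1)) := YY_pow_ge h j
    have h3 := HK_pow_nonneg hk h hη (j + 1)
    have h4 : YY L * HK kappa L ≤ YY (powLaw L (j + 1)) * HK kappa L :=
      mul_le_mul_of_nonneg_right h2 hη
    have h5 : 0 ≤ YY L * HK kappa (powLaw L (j + 1)) := mul_nonneg hY h3
    have h6 : gam * (YY L * HK kappa L) ≤ gam * (YY L * HK kappa (powLaw L (j + 1))
        + YY (powLaw L (j + 1)) * HK kappa L) :=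
      mul_le_mul_of_nonneg_left (by linarith) hg
    linarith
  induction k with
  | zero =>
    have h1 := hsave 0
    have e : ((0 : ℕ) : ℝ) = 0 := Nat.cast_zero
    rw [e]
    show YY (powLaw L (0 + 1 + 1)) ≤ _
    linarith
  | succ k ih =>
    have h1 := hsave (k + 1)
    have e : ((k + 1 : ℕ) : ℝ) = (k : ℝ) + 1 := by push_cast; ring
    rw [e]
    show YY (powLaw L (k + 1 + 1 + 1)) ≤ _
    have ih' : YY (powLaw L (k + 1 + 1)) ≤ (k + 2) * YY L - gam * (k + 1) * (YY L * HK kappa L) :=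
      ih
    linarith

/-! ### The channel with negative eigenvalue -/

/-- The coordinates of the channel output on a normalised triple are positive. -/
theorem T_pos {v1 v2 v3 lam : ℝ} (hv1 : 0 < v1) (hv2 : 0 < v2) (hv3 : 0 < v3)
    (hv : v1 + v2 + v3 = 3) (h0 : -(1 / 2) ≤ lam) (h1 : lam ≤ 1) : 0 < lam * v1 + (1 - lam) := by
  rcases le_or_gt 0 lam with hl | hl
  · rcases eq_or_lt_of_le hl with hl0 | hl0
    · rw [← hl0]; norm_num
    · have : 0 < lam * v1 := by positivity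
      linarith
  · have hv13 : v1 < 3 := by linarith
    nlinarith

/-- Positivity of the channel on a positive triple. -/
theorem Tl_pos {x1 x2 x3 lam : ℝ} (h1 : 0 < x1) (h2 : 0 < x2) (h3 : 0 < x3) (h0 : -(1 / 2) ≤ lam)
    (hl : lam ≤ 1) : 0 < Tl lam ((x1 + x2 + x3) / 3) x1 := by
  obtain ⟨s, v1, v2, v3, hs, hv1, hv2, hv3, hv, rfl, rfl, rfl, hss⟩ := exists_normal h1 h2 h3
  rw [hss]
  have e : Tl lam s (s * v1) = s * (lam * v1 + (1 - lam)) := by unfold Tl; ring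
  rw [e]
  exact mul_pos hs (T_pos hv1 hv2 hv3 hv h0 hl)

/-- `yy` under the channel, all admissible eigenvalues. -/
theorem yy_T' {x1 x2 x3 lam : ℝ} (h1 : 0 < x1) (h2 : 0 < x2) (h3 : 0 < x3) (h0 : -(1 / 2) ≤ lam)
    (hl : lam ≤ 1) :
    yy (Tl lam ((x1 + x2 + x3) / 3) x1) (Tl lam ((x1 + x2 + x3) / 3) x2)
        (Tl lam ((x1 + x2 + x3) / 3) x3) = lam ^ 2 * yy x1 x2 x3 := by
  obtain ⟨s, v1, v2, v3, hs, hv1, hv2, hv3, hv, rfl, rfl, rfl, hss⟩ := exists_normal h1 h2 h3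
  rw [hss]
  have e : ∀ v, Tl lam s (s * v) = s * (lam * v + (1 - lam)) := by
    intro v; unfold Tl; ring
  have hv' : v2 + v3 + v1 = 3 := by linarith
  have hv'' : v3 + v1 + v2 = 3 := by linarith
  rw [e, e, e, yy_smul hs (T_pos hv1 hv2 hv3 hv h0 hl) (T_pos hv2 hv3 hv1 hv' h0 hl)
    (T_pos hv3 hv1 hv2 hv'' h0 hl), yy_T_norm hv, yy_smul hs hv1 hv2 hv3]
  ring

/-- Core real inequality for negative eigenvalue. -/
theorem F4_neg_core {A R lam l0 : ℝ} (hA0 : 0 ≤ A) (hA1 : A < 1) (hR : R ^ 2 ≤ A ^ 3)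
    (hl0 : 0 < l0) (hl1 : l0 < 1) (h0 : -l0 ≤ lam) (h1 : lam ≤ 0) :
    -(2 * l0 / (1 - l0)) * (lam ^ 2 * A)
      ≤ (1 - 3 * (lam ^ 2 * A) + 2 * (lam ^ 3 * R)) / (1 - lam ^ 2 * A) - 1 + 2 * (lam ^ 2 * A) := by
  obtain ⟨s, hs⟩ : ∃ s, s = Real.sqrt A := ⟨_, rfl⟩
  have hs0 : 0 ≤ s := by rw [hs]; exact Real.sqrt_nonneg A
  have hs2 : s ^ 2 = A := by rw [hs]; exact Real.sq_sqrt hA0
  have hs1 : s < 1 := by
    by_contra h
    push Not at h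
    nlinarith
  have hRs : |R| ≤ s ^ 3 := by
    have h3 : R ^ 2 ≤ (s ^ 3) ^ 2 := by
      have : (s ^ 3) ^ 2 = A ^ 3 := by rw [← hs2]; ring
      rw [this]; exact hR
    exact abs_le_of_sq_le_sq h3 (by positivity)
  obtain ⟨t, ht⟩ : ∃ t, t = -lam := ⟨_, rfl⟩
  have ht0 : 0 ≤ t := by rw [ht]; linarith
  have ht1 : t ≤ l0 := by rw [ht]; linarith
  have hlam : lam = -t := by rw [ht]; ring
  obtain ⟨a, ha⟩ : ∃ a, a = t * s := ⟨_, rfl⟩
  have ha0 : 0 ≤ a := by rw [ha]; positivity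
  have hal : a ≤ l0 := by
    rw [ha]
    have : t * s ≤ t * 1 := mul_le_mul_of_nonneg_left hs1.le ht0
    linarith
  have ha1 : a < 1 := by linarith
  have e1 : lam ^ 2 * A = a ^ 2 := by rw [hlam, ← hs2, ha]; ring
  have hden : 0 < 1 - a ^ 2 := by nlinarith
  have hden2 : 0 < 1 - l0 := by linarith
  have hR3 : -a ^ 3 ≤ lam ^ 3 * R := by
    have e : lam ^ 3 * R = -(t ^ 3 * R) := by rw [hlam]; ring
    have e' : a ^ 3 = t ^ 3 * s ^ 3 := by rw [ha]; ring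
    have h5 : t ^ 3 * R ≤ t ^ 3 * s ^ 3 :=
      mul_le_mul_of_nonneg_left ((le_abs_self R).trans hRs) (by positivity)
    rw [e, e']
    linarith
  rw [e1]
  have key : (1 - 3 * a ^ 2 + 2 * (lam ^ 3 * R)) / (1 - a ^ 2) - 1 + 2 * a ^ 2
      = (2 * (lam ^ 3 * R) - 2 * a ^ 4) / (1 - a ^ 2) := by
    field_simp
    ring
  rw [key, le_div_iff₀ hden]
  have e3 : -(2 * l0 / (1 - l0)) * a ^ 2 * (1 - a ^ 2) = -(2 * (l0 / (1 - l0))) * a ^ 2 * (1 - a ^ 2) := by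
    ring
  rw [e3]
  obtain ⟨c, hc⟩ : ∃ c, c = l0 / (1 - l0) := ⟨_, rfl⟩
  rw [← hc]
  have hca : a ≤ c * (1 - a) := by
    rw [hc, div_mul_eq_mul_div, le_div_iff₀ hden2]
    nlinarith
  have hfin : 0 ≤ 2 * a ^ 2 * (1 + a) * (c * (1 - a) - a) := by
    have : 0 ≤ c * (1 - a) - a := by linarith
    positivity
  nlinarith

/-- The class function under the channel with negative eigenvalue, normalised. -/
theorem hh_T_neg_norm {v1 v2 v3 lam l0 : ℝ} (hv1 : 0 < v1) (hv2 : 0 < v2) (hv3 : 0 < v3)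
    (hv : v1 + v2 + v3 = 3) (hl0 : 0 < l0) (hl1 : l0 < 1) (h0 : -l0 ≤ lam) (h1 : lam ≤ 0) :
    -(2 * l0 / (1 - l0)) * (lam ^ 2 * yy v1 v2 v3)
      ≤ hh (lam * v1 + (1 - lam)) (lam * v2 + (1 - lam)) (lam * v3 + (1 - lam)) := by
  have hv3' : v3 = 3 - v1 - v2 := by linarith
  obtain ⟨a, ha⟩ : ∃ a, a = (v1 * v2 + v2 * v3 + v3 * v1) / 3 := ⟨_, rfl⟩
  have ha0 : 0 < a := by rw [ha]; positivity
  obtain ⟨A, hA⟩ : ∃ A, A = 1 - a := ⟨_, rfl⟩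
  obtain ⟨R, hR⟩ : ∃ R, R = (v1 * v2 * v3 - 1 + 3 * A) / 2 := ⟨_, rfl⟩
  have hA0 : 0 ≤ A := by
    rw [hA, ha, hv3']
    nlinarith [sq_nonneg (v1 - 1), sq_nonneg (v2 - 1), sq_nonneg (v1 + v2 - 2)]
  have hA1 : A < 1 := by rw [hA]; linarith
  have hRA : A ^ 3 - R ^ 2 = (1 / 108) * ((v1 - v2) * (v2 - v3) * (v3 - v1)) ^ 2 := by
    rw [hR, hA, ha, hv3']
    ring
  have hRA' : R ^ 2 ≤ A ^ 3 := by
    have : 0 ≤ (1 / 108) * ((v1 - v2) * (v2 - v3) * (v3 - v1)) ^ 2 := by positivity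
    linarith
  have hF := F4_neg_core hA0 hA1 hRA' hl0 hl1 h0 h1
  have hs : (lam * v1 + (1 - lam)) + (lam * v2 + (1 - lam)) + (lam * v3 + (1 - lam)) = 3 := by
    rw [hv3']; ring
  have yv : yy v1 v2 v3 = A := by rw [yy_norm hv, hA, ha]
  have yT : yy (lam * v1 + (1 - lam)) (lam * v2 + (1 - lam)) (lam * v3 + (1 - lam))
      = lam ^ 2 * A := by rw [yy_T_norm hv, yv]
  have e2T : (lam * v1 + (1 - lam)) * (lam * v2 + (1 - lam))
      + (lam * v2 + (1 - lam)) * (lam * v3 + (1 - lam))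
      + (lam * v3 + (1 - lam)) * (lam * v1 + (1 - lam)) = 3 * (1 - lam ^ 2 * A) := by
    rw [hA, ha, hv3']; ring
  have e3T : (lam * v1 + (1 - lam)) * (lam * v2 + (1 - lam)) * (lam * v3 + (1 - lam))
      = 1 - 3 * (lam ^ 2 * A) + 2 * (lam ^ 3 * R) := by
    rw [hR, hA, ha, hv3']; ring
  have hl : 1 - lam ^ 2 * A ≠ 0 := by
    have h2 : lam ^ 2 ≤ 1 := by nlinarith
    have h3 : lam ^ 2 * A ≤ 1 * A := mul_le_mul_of_nonneg_right h2 hA0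
    intro h
    linarith
  have mT : mm (lam * v1 + (1 - lam)) (lam * v2 + (1 - lam)) (lam * v3 + (1 - lam))
      = (1 - 3 * (lam ^ 2 * A) + 2 * (lam ^ 3 * R)) / (1 - lam ^ 2 * A) := by
    unfold mm
    rw [e2T, e3T]
    field_simp
  have hT : hh (lam * v1 + (1 - lam)) (lam * v2 + (1 - lam)) (lam * v3 + (1 - lam))
      = (1 - 3 * (lam ^ 2 * A) + 2 * (lam ^ 3 * R)) / (1 - lam ^ 2 * A) - 1 + 2 * (lam ^ 2 * A) := by
    unfold hh
    rw [mT, yT, hs]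
    ring
  rw [hT, yv]
  exact hF

/-- The class function under the channel with negative eigenvalue. -/
theorem hh_T_neg {x1 x2 x3 lam l0 : ℝ} (h1 : 0 < x1) (h2 : 0 < x2) (h3 : 0 < x3)
    (hl0 : 0 < l0) (hl1 : l0 ≤ 1 / 2) (h0 : -l0 ≤ lam) (hl : lam ≤ 0) :
    -(2 * l0 / (1 - l0)) * (lam ^ 2 * yy x1 x2 x3)
      ≤ hh (Tl lam ((x1 + x2 + x3) / 3) x1) (Tl lam ((x1 + x2 + x3) / 3) x2)
        (Tl lam ((x1 + x2 + x3) / 3) x3) := by
  obtain ⟨s, v1, v2, v3, hs, hv1, hv2, hv3, hv, rfl, rfl, rfl, hss⟩ := exists_normal h1 h2 h3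
  rw [hss]
  have e : ∀ v, Tl lam s (s * v) = s * (lam * v + (1 - lam)) := by
    intro v; unfold Tl; ring
  have hv' : v2 + v3 + v1 = 3 := by linarith
  have hv'' : v3 + v1 + v2 = 3 := by linarith
  have hm : -(1 / 2) ≤ lam := by linarith
  have hl' : lam ≤ 1 := by linarith
  rw [e, e, e, hh_smul hs (T_pos hv1 hv2 hv3 hv hm hl') (T_pos hv2 hv3 hv1 hv' hm hl')
    (T_pos hv3 hv1 hv2 hv'' hm hl'), yy_smul hs hv1 hv2 hv3]
  have := hh_T_neg_norm hv1 hv2 hv3 hv hl0 (by linarith) h0 hl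
  have h' := mul_le_mul_of_nonneg_left this hs.le
  nlinarith

theorem yy_le_mass {x1 x2 x3 : ℝ} (h1 : 0 < x1) (h2 : 0 < x2) (h3 : 0 < x3) :
    yy x1 x2 x3 ≤ (x1 + x2 + x3) / 3 := by
  unfold yy
  have : 0 ≤ (x1 * x2 + x2 * x3 + x3 * x1) / (x1 + x2 + x3) := by positivity
  linarith

/-- The channel acting on a law, all admissible eigenvalues. -/
theorem IsLaw.chan' {L : Ω → Fin 3 → ℝ} (h : IsLaw L) {lam : ℝ} (h0 : -(1 / 2) ≤ lam)
    (h1 : lam ≤ 1) : IsLaw (chanLaw lam L) where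
  pos := fun τ i => by
    unfold chanLaw
    have p0 := h.pos τ 0
    have p1 := h.pos τ 1
    have p2 := h.pos τ 2
    fin_cases i
    · exact Tl_pos p0 p1 p2 h0 h1
    · have := Tl_pos p1 p2 p0 h0 h1
      have e : (L τ 1 + L τ 2 + L τ 0) / 3 = (L τ 0 + L τ 1 + L τ 2) / 3 := by ring
      rw [e] at this
      exact this
    · have := Tl_pos p2 p0 p1 h0 h1
      have e : (L τ 2 + L τ 0 + L τ 1) / 3 = (L τ 0 + L τ 1 + L τ 2) / 3 := by ring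
      rw [e] at this
      exact this
  norm := fun i => by
    unfold chanLaw Tl
    rw [Finset.sum_add_distrib, ← Finset.mul_sum, ← Finset.mul_sum, h.norm, sum_mass h]
    ring
  symm := fun g => by
    obtain ⟨e, he⟩ := h.symm g
    refine ⟨e, fun τ i => ?_⟩
    unfold chanLaw Tl
    have hs : L (e τ) 0 + L (e τ) 1 + L (e τ) 2 = L τ 0 + L τ 1 + L τ 2 := by
      rw [he, he, he]
      have := Equiv.sum_comp g (fun j => L τ j)
      simpa [Fin.sum_univ_three] using this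
    rw [hs, he]

theorem YY_chan' {L : Ω → Fin 3 → ℝ} (h : IsLaw L) {lam : ℝ} (h0 : -(1 / 2) ≤ lam) (h1 : lam ≤ 1) :
    YY (chanLaw lam L) = lam ^ 2 * YY L := by
  unfold YY chanLaw
  rw [Finset.mul_sum]
  exact Finset.sum_congr rfl fun τ _ => yy_T' (h.pos τ 0) (h.pos τ 1) (h.pos τ 2) h0 h1

/-- The atoms after the channel are small. -/
theorem small_chan {L : Ω → Fin 3 → ℝ} (h : IsLaw L) {lam l0 : ℝ} (h0 : -l0 ≤ lam) (h1 : lam ≤ 0) :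
    SmallAtoms l0 (chanLaw lam L) := by
  intro τ i
  unfold chanLaw
  have p0 := h.pos τ 0
  have p1 := h.pos τ 1
  have p2 := h.pos τ 2
  have pi := h.pos τ i
  have e : (Tl lam ((L τ 0 + L τ 1 + L τ 2) / 3) (L τ 0) + Tl lam ((L τ 0 + L τ 1 + L τ 2) / 3) (L τ 1)
      + Tl lam ((L τ 0 + L τ 1 + L τ 2) / 3) (L τ 2)) / 3 = (L τ 0 + L τ 1 + L τ 2) / 3 := by
    unfold Tl
    ring
  rw [e]
  have hs : 0 < (L τ 0 + L τ 1 + L τ 2) / 3 := by positivity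
  unfold Tl
  nlinarith

/-- The class after the channel, with a quantitative bound. -/
theorem HK_chan {L : Ω → Fin 3 → ℝ} (h : IsLaw L) {lam l0 kappa : ℝ} (hl0 : 0 < l0)
    (hl1 : l0 ≤ 1 / 2) (h0 : -l0 ≤ lam) (h1 : lam ≤ 0) :
    (kappa - 2 * l0 / (1 - l0)) * (lam ^ 2 * YY L) ≤ HK kappa (chanLaw lam L) := by
  unfold HK
  rw [YY_chan' h (by linarith) (by linarith)]
  have hp : ∀ τ, -(2 * l0 / (1 - l0)) * (lam ^ 2 * yy (L τ 0) (L τ 1) (L τ 2))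
      ≤ hh (chanLaw lam L τ 0) (chanLaw lam L τ 1) (chanLaw lam L τ 2) :=
    fun τ => hh_T_neg (h.pos τ 0) (h.pos τ 1) (h.pos τ 2) hl0 hl1 h0 h1
  have hsum := Finset.sum_le_sum fun τ (_ : τ ∈ (Finset.univ : Finset Ω)) => hp τ
  rw [← Finset.mul_sum, ← Finset.mul_sum] at hsum
  unfold HH YY
  nlinarith

end

end Vale.Agent.P154
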