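import Vale.Agent.P154.Neg.Law

/-!
Three-state Potts channel with negative eigenvalue: the `d`-ary tree.
-/

namespace Vale.Agent.P154

noncomputable section

open Finset Filter Topology

variable {d : ℕ} {lam l0 kappa gam : ℝ}

/-- The atoms at the first level are positive, for `-1/2 < lam < 1`. -/
theorem firstLaw_isLaw' (h0 : -(1 / 2) < lam) (h1 : lam < 1) : IsLaw (firstLaw lam) where
  pos := fun i₀ i => by
    unfold firstLaw Tl
    split_ifs <;> nlinarith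
  norm := fun i => by
    unfold firstLaw Tl
    rw [Fin.sum_univ_three]
    fin_cases i <;> simp <;> ring
  symm := fun g => by
    refine ⟨g.symm, fun i₀ i => ?_⟩
    unfold firstLaw
    simp [Equiv.symm_apply_eq]

theorem hh_first' {a : ℝ} (h0 : -1 < a) (h1 : a < 1) :
    hh (a + (1 - a) / 3) ((1 - a) / 3) ((1 - a) / 3) = 2 * a ^ 3 / (3 * (1 + a)) := by
  have h2 : (1 - a) ≠ 0 := by linarith
  have h3 : (1 + a) ≠ 0 := by linarith
  have e1 : (a + (1 - a) / 3) + ((1 - a) / 3) + ((1 - a) / 3) = 1 := by ring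
  have e2 : (a + (1 - a) / 3) * ((1 - a) / 3) + ((1 - a) / 3) * ((1 - a) / 3)
      + ((1 - a) / 3) * (a + (1 - a) / 3) = (1 - a) * (1 + a) / 3 := by ring
  unfold hh mm yy
  rw [e1, e2]
  field_simp
  ring

theorem yy_first (a : ℝ) :
    yy (a + (1 - a) / 3) ((1 - a) / 3) ((1 - a) / 3) = a ^ 2 / 3 := by
  have e1 : (a + (1 - a) / 3) + ((1 - a) / 3) + ((1 - a) / 3) = 1 := by ring
  have e2 : (a + (1 - a) / 3) * ((1 - a) / 3) + ((1 - a) / 3) * ((1 - a) / 3)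
      + ((1 - a) / 3) * (a + (1 - a) / 3) = (1 - a) * (1 + a) / 3 := by ring
  unfold yy
  rw [e1, e2]
  ring

theorem yy_sym1 (x y z : ℝ) : yy x y z = yy y x z := by
  unfold yy
  have e1 : x + y + z = y + x + z := by ring
  have e2 : x * y + y * z + z * x = y * x + x * z + z * y := by ring
  rw [e1, e2]

theorem yy_sym2 (x y z : ℝ) : yy x y z = yy z y x := by
  unfold yy
  have e1 : x + y + z = z + y + x := by ring
  have e2 : x * y + y * z + z * x = z * y + y * x + x * z := by ring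
  rw [e1, e2]

/-- Values of the functionals on the first level atoms. -/
theorem first_vals (i₀ : Fin 3) :
    yy (firstLaw lam i₀ 0) (firstLaw lam i₀ 1) (firstLaw lam i₀ 2)
        = yy (lam + (1 - lam) / 3) ((1 - lam) / 3) ((1 - lam) / 3)
      ∧ hh (firstLaw lam i₀ 0) (firstLaw lam i₀ 1) (firstLaw lam i₀ 2)
        = hh (lam + (1 - lam) / 3) ((1 - lam) / 3) ((1 - lam) / 3)
      ∧ firstLaw lam i₀ 0 + firstLaw lam i₀ 1 + firstLaw lam i₀ 2 = 1 := by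
  have ea : Tl lam (1 / 3) 1 = lam + (1 - lam) / 3 := by unfold Tl; ring
  have eb : Tl lam (1 / 3) 0 = (1 - lam) / 3 := by unfold Tl; ring
  unfold firstLaw
  fin_cases i₀
  · simp only [Fin.zero_eta, Fin.isValue, if_true, Fin.reduceEq, if_false, one_ne_zero,
      zero_ne_one]
    rw [ea, eb]
    exact ⟨rfl, rfl, by ring⟩
  · simp only [Fin.mk_one, Fin.isValue, if_true, Fin.reduceEq, if_false, one_ne_zero, zero_ne_one]
    rw [ea, eb]
    exact ⟨yy_sym1 _ _ _, hh_sym1 _ _ _, by ring⟩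
  · simp only [Fin.reduceFinMk, Fin.isValue, if_true, Fin.reduceEq, if_false, one_ne_zero,
      zero_ne_one]
    rw [ea, eb]
    exact ⟨yy_sym2 _ _ _, hh_sym2 _ _ _, by ring⟩

/-- The first level law is in the class. -/
theorem firstLaw_HK (hl0 : 0 < l0) (hl1 : l0 < 1 / 2) (hk : 2 * l0 / (1 - l0) ≤ kappa)
    (h0 : -l0 ≤ lam) (h1 : lam ≤ 0) : 0 ≤ HK kappa (firstLaw lam) := by
  have hd : 0 < 1 - l0 := by linarith
  have hval : 0 ≤ 2 * lam ^ 3 / (3 * (1 + lam)) + kappa * (lam ^ 2 / 3) := by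
    have hp : 0 < 1 + lam := by linarith
    have hc : 2 * (-lam) / (1 + lam) ≤ 2 * l0 / (1 - l0) := by
      rw [div_le_div_iff₀ hp hd]
      nlinarith
    have hc2 : 2 * (-lam) / (1 + lam) ≤ kappa := hc.trans hk
    have e : 2 * lam ^ 3 / (3 * (1 + lam)) + kappa * (lam ^ 2 / 3)
        = (lam ^ 2 / 3) * (kappa - 2 * (-lam) / (1 + lam)) := by
      field_simp
      ring
    rw [e]
    have : 0 ≤ kappa - 2 * (-lam) / (1 + lam) := by linarith
    positivity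
  unfold HK HH YY
  rw [Finset.mul_sum, ← Finset.sum_add_distrib]
  refine Finset.sum_nonneg fun i₀ _ => ?_
  obtain ⟨e1, e2, -⟩ := first_vals (lam := lam) i₀
  rw [e1, e2, hh_first' (by linarith) (by linarith), yy_first]
  exact hval

/-- The first level law has small atoms. -/
theorem firstLaw_small (h0 : -l0 ≤ lam) (h1 : lam ≤ 0) :
    SmallAtoms l0 (firstLaw lam) := by
  intro i₀ i
  obtain ⟨-, -, e3⟩ := first_vals (lam := lam) i₀
  rw [e3]
  have ea : Tl lam (1 / 3) 1 = lam + (1 - lam) / 3 := by unfold Tl; ring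
  have eb : Tl lam (1 / 3) 0 = (1 - lam) / 3 := by unfold Tl; ring
  unfold firstLaw
  split_ifs
  · rw [ea]; linarith
  · rw [eb]; linarith

/-- The package of facts on a law after the channel. -/
structure GoodNeg (l0 kappa : ℝ) {Ω : Type*} [Fintype Ω] (μ : Ω → Fin 3 → ℝ) : Prop where
  law : IsLaw μ
  small : SmallAtoms l0 μ
  hk : 0 ≤ HK kappa μ

theorem GoodNeg.of_chan {Ω : Type*} [Fintype Ω] {L : Ω → Fin 3 → ℝ} (h : IsLaw L)
    (hl0 : 0 < l0) (hl1 : l0 < 1 / 2) (hk : 2 * l0 / (1 - l0) ≤ kappa)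
    (h0 : -l0 ≤ lam) (h1 : lam ≤ 0) : GoodNeg l0 kappa (chanLaw lam L) where
  law := h.chan' (by linarith) (by linarith)
  small := small_chan h h0 h1
  hk := by
    have h2 := HK_chan (kappa := kappa) h hl0 hl1.le h0 h1
    have h3 : 0 ≤ (kappa - 2 * l0 / (1 - l0)) * (lam ^ 2 * YY L) := by
      have := YY_nonneg h
      have : 0 ≤ kappa - 2 * l0 / (1 - l0) := by linarith
      positivity
    linarith

theorem GoodNeg.first (hl0 : 0 < l0) (hl1 : l0 < 1 / 2) (hk : 2 * l0 / (1 - l0) ≤ kappa)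
    (h0 : -l0 ≤ lam) (h1 : lam ≤ 0) : GoodNeg l0 kappa (firstLaw lam) where
  law := firstLaw_isLaw' (by linarith) (by linarith)
  small := firstLaw_small h0 h1
  hk := firstLaw_HK hl0 hl1 hk h0 h1

/-- Transport along an equivalence. -/
theorem SmallAtoms.comp_equiv {Ω Ω' : Type*} [Fintype Ω] [Fintype Ω']
    {L : Ω → Fin 3 → ℝ} (h : SmallAtoms l0 L) (E : Ω' ≃ Ω) :
    SmallAtoms l0 (fun τ i => L (E τ) i) := fun τ i => h (E τ) i

/-- The law after the channel is good at every level. -/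
theorem mu_goodNeg (hl0 : 0 < l0) (hl1 : l0 < 1 / 2) (hk : 2 * l0 / (1 - l0) ≤ kappa)
    (h0 : -l0 ≤ lam) (h1 : lam ≤ 0) (hk0 : 0 ≤ kappa) (n : ℕ) :
    GoodNeg l0 kappa (chanLaw lam (Lk d lam n)) := by
  induction n with
  | zero =>
    rw [chan_zero]
    have hf := GoodNeg.first hl0 hl1 hk h0 h1
    refine ⟨hf.law.comp_equiv (zeroEquiv d), hf.small.comp_equiv (zeroEquiv d), ?_⟩
    rw [HK_comp_equiv]
    exact hf.hk
  | succ n ih =>
    have hL : IsLaw (Lk d lam (n + 1)) := by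
      rw [Lk_succ]
      exact (ih.law.pow d).comp_equiv (splitEquiv d n)
    exact GoodNeg.of_chan hL hl0 hl1 hk h0 h1

theorem Lk_goodNeg (hl0 : 0 < l0) (hl1 : l0 < 1 / 2) (hk : 2 * l0 / (1 - l0) ≤ kappa)
    (h0 : -l0 ≤ lam) (h1 : lam ≤ 0) (hk0 : 0 ≤ kappa) (n : ℕ) :
    IsLaw (Lk d lam (n + 1)) := by
  rw [Lk_succ]
  exact ((mu_goodNeg hl0 hl1 hk h0 h1 hk0 n).law.pow d).comp_equiv (splitEquiv d n)

/-- The one step recursion for the second moment functional. -/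
theorem y_stepNeg (hF : F1k l0 kappa gam) (hg : 0 ≤ gam) (hd : 2 ≤ d) (hl0 : 0 < l0)
    (hl1 : l0 < 1 / 2) (hk : 2 * l0 / (1 - l0) ≤ kappa) (hk0 : 0 ≤ kappa)
    (h0 : -l0 ≤ lam) (h1 : lam ≤ 0) (hlam : (d : ℝ) * lam ^ 2 ≤ 1) (n : ℕ) :
    YY (Lk d lam (n + 2)) ≤ (d : ℝ) * (lam ^ 2 * YY (Lk d lam (n + 1)))
      - gam * (kappa - 2 * l0 / (1 - l0)) * lam ^ 4 * (YY (Lk d lam (n + 1))) ^ 2 := by
  obtain ⟨k, rfl⟩ : ∃ k, d = k + 2 := ⟨d - 2, by omega⟩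
  have hL := Lk_goodNeg (d := k + 2) hl0 hl1 hk h0 h1 hk0 n
  have hμ := mu_goodNeg (d := k + 2) hl0 hl1 hk h0 h1 hk0 (n + 1)
  have hy0 := YY_nonneg hL
  have hrec : YY (Lk (k + 2) lam (n + 2)) ≤ (k + 2) * YY (chanLaw lam (Lk (k + 2) lam (n + 1)))
      - gam * (k + 1) * (YY (chanLaw lam (Lk (k + 2) lam (n + 1)))
        * HK kappa (chanLaw lam (Lk (k + 2) lam (n + 1)))) := by
    rw [Lk_succ (k + 2) lam (n + 1), YY_comp_equiv]
    exact YY_pow_le_k hF hk0 hg hμ.law hμ.small hμ.hk k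
  rw [YY_chan' hL (by linarith) (by linarith)] at hrec
  have hC := HK_chan (kappa := kappa) hL hl0 hl1.le h0 h1
  obtain ⟨y, hy⟩ : ∃ y, y = YY (Lk (k + 2) lam (n + 1)) := ⟨_, rfl⟩
  obtain ⟨e, he⟩ : ∃ e, e = HK kappa (chanLaw lam (Lk (k + 2) lam (n + 1))) := ⟨_, rfl⟩
  obtain ⟨θ, hθ⟩ : ∃ θ, θ = kappa - 2 * l0 / (1 - l0) := ⟨_, rfl⟩
  rw [← hθ, ← hy, ← he] at hC
  rw [← hy, ← he] at hrec
  rw [← hy] at hy0 ⊢
  rw [← hθ]
  have hθ0 : 0 ≤ θ := by rw [hθ]; linarith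
  have h5 : 0 ≤ lam ^ 2 * y := by positivity
  have hk' : (0 : ℝ) ≤ k := Nat.cast_nonneg k
  have h6 : (lam ^ 2 * y) * (θ * (lam ^ 2 * y)) ≤ (lam ^ 2 * y) * e :=
    mul_le_mul_of_nonneg_left hC h5
  have h7 : 0 ≤ (lam ^ 2 * y) * e := by
    have : 0 ≤ e := by rw [he]; exact hμ.hk
    positivity
  have h8 : gam * 1 * ((lam ^ 2 * y) * e) ≤ gam * (k + 1) * ((lam ^ 2 * y) * e) := by
    refine mul_le_mul_of_nonneg_right ?_ h7
    refine mul_le_mul_of_nonneg_left ?_ hg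
    linarith
  have h9 : gam * 1 * ((lam ^ 2 * y) * (θ * (lam ^ 2 * y))) ≤ gam * 1 * ((lam ^ 2 * y) * e) :=
    mul_le_mul_of_nonneg_left h6 (by linarith)
  have e1 : gam * θ * lam ^ 4 * y ^ 2 = gam * 1 * ((lam ^ 2 * y) * (θ * (lam ^ 2 * y))) := by ring
  rw [e1]
  push_cast
  linarith

/-- A sequence with `y (n + 1) ≤ y n - c * (y n) ^ 2` goes to zero. -/
theorem tendsto_zero_of_quad {y : ℕ → ℝ} {c : ℝ} (hc : 0 < c) (h0 : ∀ n, 0 ≤ y n)
    (hs : ∀ n, y (n + 1) ≤ y n - c * (y n) ^ 2) : Tendsto y atTop (𝓝 0) := by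
  have hanti : Antitone y := antitone_nat_of_succ_le fun n => by
    have : 0 ≤ c * (y n) ^ 2 := mul_nonneg hc.le (pow_nonneg (h0 n) 2)
    linarith [hs n]
  have hbdd : BddBelow (Set.range y) := ⟨0, by rintro _ ⟨n, rfl⟩; exact h0 n⟩
  have hlim := tendsto_atTop_ciInf hanti hbdd
  obtain ⟨l, hl⟩ : ∃ l, l = ⨅ i, y i := ⟨_, rfl⟩
  rw [← hl] at hlim
  have hl0 : 0 ≤ l := ge_of_tendsto' hlim h0
  have hlim2 : Tendsto (fun n => y n - c * (y n) ^ 2) atTop (𝓝 (l - c * l ^ 2)) :=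
    hlim.sub ((hlim.pow 2).const_mul c)
  have hlim3 : Tendsto (fun n => y (n + 1)) atTop (𝓝 l) := (tendsto_add_atTop_iff_nat 1).2 hlim
  have hle : l ≤ l - c * l ^ 2 := le_of_tendsto_of_tendsto' hlim3 hlim2 hs
  have hl3 : l ^ 2 ≤ 0 := by
    by_contra h
    push Not at h
    have := mul_pos hc h
    linarith
  have : l = 0 := by
    by_contra h
    have hp : 0 < l := lt_of_le_of_ne hl0 (Ne.symm h)
    have := pow_pos hp 2
    linarith
  rwa [this] at hlim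

/-- The functional at level `n + 1` goes to zero. -/
theorem y_tendstoNeg (hF : F1k l0 kappa gam) (hg : 0 < gam) (hd : 2 ≤ d) (hl0 : 0 < l0)
    (hl1 : l0 < 1 / 2) (hk : 2 * l0 / (1 - l0) < kappa) (hk0 : 0 ≤ kappa)
    (h0 : -l0 ≤ lam) (h1 : lam ≤ 0) (hlam : (d : ℝ) * lam ^ 2 ≤ 1) :
    Tendsto (fun n => YY (Lk d lam (n + 1))) atTop (𝓝 0) := by
  have hy0 : ∀ n, 0 ≤ YY (Lk d lam (n + 1)) :=
    fun n => YY_nonneg (Lk_goodNeg hl0 hl1 hk.le h0 h1 hk0 n)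
  have hstep := y_stepNeg hF hg.le hd hl0 hl1 hk.le hk0 h0 h1 hlam
  rcases eq_or_lt_of_le h1 with h00 | h00
  · subst h00
    refine (tendsto_add_atTop_iff_nat 1).1 ?_
    refine tendsto_const_nhds.congr fun n => ?_
    have h2 := hstep n
    have h3 := hy0 (n + 1)
    norm_num at h2
    linarith
  · have hθ : 0 < kappa - 2 * l0 / (1 - l0) := by linarith
    have hlam4 : 0 < lam ^ 4 := by
      have : lam ≠ 0 := h00.ne
      positivity
    refine tendsto_zero_of_quad (c := gam * (kappa - 2 * l0 / (1 - l0)) * lam ^ 4) (by positivity)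
      hy0 (fun n => ?_)
    have h2 := hstep n
    have h3 : (d : ℝ) * (lam ^ 2 * YY (Lk d lam (n + 1))) ≤ YY (Lk d lam (n + 1)) := by
      have := mul_le_mul_of_nonneg_right hlam (hy0 n)
      nlinarith
    exact h2.trans (by linarith)

/-- The statistical quantity in terms of a positive law. -/
theorem reconA_eq' (d : ℕ) (lam : ℝ) (n : ℕ) (hL : IsLaw (Lk d lam (n + 1))) :
    reconA 3 d lam (n + 1) = ∑ τ, (1 / 6) *
      (|Lk d lam (n + 1) τ 0 - (Lk d lam (n + 1) τ 0 + Lk d lam (n + 1) τ 1 + Lk d lam (n + 1) τ 2) / 3|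
      + |Lk d lam (n + 1) τ 1 - (Lk d lam (n + 1) τ 0 + Lk d lam (n + 1) τ 1 + Lk d lam (n + 1) τ 2) / 3|
      + |Lk d lam (n + 1) τ 2 - (Lk d lam (n + 1) τ 0 + Lk d lam (n + 1) τ 1 + Lk d lam (n + 1) τ 2) / 3|) := by
  unfold reconA
  refine Finset.sum_congr rfl fun τ _ => ?_
  have p0 := hL.pos τ 0
  have p1 := hL.pos τ 1
  have p2 := hL.pos τ 2
  unfold Lk at p0 p1 p2 ⊢
  obtain ⟨x0, hx0⟩ : ∃ x, x = leafLik 3 d lam (n + 1) 0 τ := ⟨_, rfl⟩
  obtain ⟨x1, hx1⟩ : ∃ x, x = leafLik 3 d lam (n + 1) 1 τ := ⟨_, rfl⟩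
  obtain ⟨x2, hx2⟩ : ∃ x, x = leafLik 3 d lam (n + 1) 2 τ := ⟨_, rfl⟩
  have hs : leafProb 3 d lam (n + 1) τ = (x0 + x1 + x2) / 3 := by
    unfold leafProb
    rw [Fin.sum_univ_three, ← hx0, ← hx1, ← hx2]
    push_cast
    ring
  rw [hs, Fin.sum_univ_three, ← hx0, ← hx1, ← hx2]
  rw [← hx0] at p0
  rw [← hx1] at p1
  rw [← hx2] at p2
  obtain ⟨s, hss⟩ : ∃ s, s = (x0 + x1 + x2) / 3 := ⟨_, rfl⟩
  have hs0 : 0 < s := by rw [hss]; positivity
  rw [← hss]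
  have key : ∀ x : ℝ, s * |(1 / ((3 : ℕ) : ℝ)) * x / s - 1 / ((3 : ℕ) : ℝ)| = (1 / 3) * |x - s| := by
    intro x
    have e : (1 / ((3 : ℕ) : ℝ)) * x / s - 1 / ((3 : ℕ) : ℝ) = (x - s) * (1 / (3 * s)) := by
      push_cast
      field_simp
    rw [e, abs_mul, abs_of_pos (by positivity : 0 < 1 / (3 * s))]
    field_simp
  have e3 : s * ((1 / 2) * (|(1 / ((3 : ℕ) : ℝ)) * x0 / s - 1 / ((3 : ℕ) : ℝ)|
      + |(1 / ((3 : ℕ) : ℝ)) * x1 / s - 1 / ((3 : ℕ) : ℝ)|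
      + |(1 / ((3 : ℕ) : ℝ)) * x2 / s - 1 / ((3 : ℕ) : ℝ)|))
      = (1 / 2) * (s * |(1 / ((3 : ℕ) : ℝ)) * x0 / s - 1 / ((3 : ℕ) : ℝ)|
      + s * |(1 / ((3 : ℕ) : ℝ)) * x1 / s - 1 / ((3 : ℕ) : ℝ)|
      + s * |(1 / ((3 : ℕ) : ℝ)) * x2 / s - 1 / ((3 : ℕ) : ℝ)|) := by ring
  rw [e3, key, key, key]
  ring

/-- Nonreconstruction on the `d`-ary tree for small negative eigenvalue, given the certificate. -/
theorem reconA_tendsto_zeroNeg (hF : F1k l0 kappa gam) (hg : 0 < gam) (hd : 2 ≤ d) (hl0 : 0 < l0)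
    (hl1 : l0 < 1 / 2) (hk : 2 * l0 / (1 - l0) < kappa) (hk0 : 0 ≤ kappa)
    (h0 : -l0 ≤ lam) (h1 : lam ≤ 0) (hlam : (d : ℝ) * lam ^ 2 ≤ 1) :
    Tendsto (reconA 3 d lam) atTop (𝓝 0) := by
  refine (tendsto_add_atTop_iff_nat 1).1 ?_
  have hy := y_tendstoNeg hF hg hd hl0 hl1 hk hk0 h0 h1 hlam
  have hsq : Tendsto (fun n => Real.sqrt (YY (Lk d lam (n + 1)) / 2)) atTop (𝓝 0) := by
    have := (Real.continuous_sqrt.tendsto (0 / 2)).comp (hy.div_const 2)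
    have e : Real.sqrt (0 / 2) = 0 := by simp
    rw [e] at this
    exact this
  have hL := fun n => Lk_goodNeg (d := d) hl0 hl1 hk.le h0 h1 hk0 n
  refine squeeze_zero (fun n => ?_) (fun n => ?_) hsq
  · rw [reconA_eq' d lam n (hL n)]
    refine Finset.sum_nonneg fun τ _ => ?_
    positivity
  · rw [reconA_eq' d lam n (hL n)]
    exact Real.le_sqrt_of_sq_le (sq_sum_le (hL n))

end

end Vale.Agent.P154
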